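import Vale.Agent.P327.Use

/-!
The Baire category argument: a continuous map `H` on Cantor space with `H W` reducible to `W` for
every `W` is, on some cylinder, given by one oracle program which is correct wherever it converges
and which converges densely.
-/

namespace Vale.Agent.P327

open Part OCode

/-- The oracle given by a boolean sequence. -/
def chi (X : ℕ → Bool) : ℕ →. ℕ := fun n => Part.some (X n).toNat

/-- `W'` agrees with `W` below `L`. -/
def Agree (L : ℕ) (W W' : ℕ → Bool) : Prop := ∀ i < L, W' i = W i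

theorem Agree.refl (L : ℕ) (W : ℕ → Bool) : Agree L W W := fun _ _ => rfl

theorem Agree.mono {L L' : ℕ} {W W' : ℕ → Bool} (h : Agree L' W W') (hL : L ≤ L') : Agree L W W' :=
  fun i hi => h i (lt_of_lt_of_le hi hL)

theorem Agree.trans {L : ℕ} {W W' W'' : ℕ → Bool} (h : Agree L W W') (h' : Agree L W' W'') :
    Agree L W W'' := fun i hi => (h' i hi).trans (h i hi)

theorem Agree.symm {L : ℕ} {W W' : ℕ → Bool} (h : Agree L W W') : Agree L W' W :=
  fun i hi => (h i hi).symm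

theorem restr_chi_le {L : ℕ} {W W' : ℕ → Bool} (h : Agree L W W') :
    PLE (restr (chi W) L) (chi W') := by
  intro n v hv
  unfold restr at hv
  split_ifs at hv with hn
  · unfold chi at hv ⊢
    rw [h n hn]
    exact hv
  · exact absurd hv (Part.notMem_none _)

theorem isOpen_of_agree {U : Set (ℕ → Bool)}
    (h : ∀ W ∈ U, ∃ L, ∀ W', Agree L W W' → W' ∈ U) : IsOpen U := by
  rw [(PiNat.isTopologicalBasis_cylinders (E := fun _ => Bool)).isOpen_iff]
  intro W hW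
  obtain ⟨L, hL⟩ := h W hW
  refine ⟨PiNat.cylinder W L, ⟨W, L, rfl⟩, PiNat.self_mem_cylinder W L, ?_⟩
  intro W' hW'
  exact hL W' (PiNat.mem_cylinder_iff.1 hW')

theorem exists_agree_of_isOpen {U : Set (ℕ → Bool)} (hU : IsOpen U) {W : ℕ → Bool} (hW : W ∈ U) :
    ∃ L, ∀ W', Agree L W W' → W' ∈ U := by
  rw [(PiNat.isTopologicalBasis_cylinders (E := fun _ => Bool)).isOpen_iff] at hU
  obtain ⟨t, ⟨x, L, rfl⟩, hWt, ht⟩ := hU W hW
  refine ⟨L, fun W' hW' => ht ?_⟩
  rw [PiNat.mem_cylinder_iff] at hWt ⊢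
  intro i hi
  rw [hW' i hi, hWt i hi]

theorem baire_good (H : (ℕ → Bool) → (ℕ → Bool))
    (hcont : ∀ W m, ∃ L, ∀ W', Agree L W W' → H W' m = H W m)
    (hred : ∀ W, ∃ c, eval (chi W) c = chi (H W)) :
    ∃ (c : OCode) (W0 : ℕ → Bool) (L0 : ℕ),
      (∀ W, Agree L0 W0 W → ∀ m v, v ∈ eval (chi W) c m → v = (H W m).toNat) ∧
      (∀ W, Agree L0 W0 W → ∀ L m, ∃ W', Agree L W W' ∧ (eval (chi W') c m).Dom) := by
  by_contra hno
  push Not at hno
  let O : OCode → Set (ℕ → Bool) := fun c =>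
    {W | (∃ m v, v ∈ eval (chi W) c m ∧ v ≠ (H W m).toNat) ∨
      (∃ L m, ∀ W', Agree L W W' → ¬ (eval (chi W') c m).Dom)}
  have hopen : ∀ c, IsOpen (O c) := by
    intro c
    apply isOpen_of_agree
    rintro W (⟨m, v, hv, hne⟩ | ⟨L, m, hL⟩)
    · obtain ⟨L1, h1⟩ := OCode.use _ _ _ _ hv
      obtain ⟨L2, h2⟩ := hcont W m
      refine ⟨max L1 L2, fun W' hW' => Or.inl ⟨m, v, ?_, ?_⟩⟩
      · exact OCode.mono (restr_chi_le (hW'.mono (le_max_left _ _))) _ _ _ h1
      · rw [h2 W' (hW'.mono (le_max_right _ _))]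
        exact hne
    · exact ⟨L, fun W' hW' => Or.inr ⟨L, m, fun W'' hW'' => hL W'' (hW'.trans hW'')⟩⟩
  have hdense : ∀ c, Dense (O c) := by
    intro c
    rw [dense_iff_inter_open]
    rintro U hU ⟨W0, hW0⟩
    obtain ⟨L0, hL0⟩ := exists_agree_of_isOpen hU hW0
    by_cases h1 : ∀ W, Agree L0 W0 W → ∀ m v, v ∈ eval (chi W) c m → v = (H W m).toNat
    · obtain ⟨W, hW, L, m, hWL⟩ := hno c W0 L0 h1
      exact ⟨W, hL0 W hW, Or.inr ⟨L, m, hWL⟩⟩
    · push Not at h1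
      obtain ⟨W, hW, m, v, hv, hne⟩ := h1
      exact ⟨W, hL0 W hW, Or.inl ⟨m, v, hv, hne⟩⟩
  obtain ⟨W, hW⟩ := (dense_iInter_of_isOpen hopen hdense).nonempty
  rw [Set.mem_iInter] at hW
  obtain ⟨c, hc⟩ := hred W
  rcases hW c with ⟨m, v, hv, hne⟩ | ⟨L, m, hL⟩
  · rw [hc] at hv
    exact hne (Part.mem_some_iff.1 hv)
  · apply hL W (Agree.refl L W)
    rw [hc]
    trivial

end Vale.Agent.P327
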