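import Vale.Agent.P327.Baire

/-!
The Baire category dichotomy with a continuous change of oracle.
-/

namespace Vale.Agent.P327

open OCode

/-- Pointwise continuity in terms of agreement of initial segments. -/
def PC (Q : (ℕ → Bool) → (ℕ → Bool)) : Prop :=
  ∀ W m, ∃ L, ∀ W', Agree L W W' → Q W' m = Q W m

theorem PC.upto {Q : (ℕ → Bool) → (ℕ → Bool)} (hQ : PC Q) (W : ℕ → Bool) (K : ℕ) :
    ∃ L, ∀ W', Agree L W W' → Agree K (Q W) (Q W') := by
  induction K with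
  | zero => exact ⟨0, fun W' _ i hi => absurd hi (Nat.not_lt_zero i)⟩
  | succ K ih =>
    obtain ⟨L1, h1⟩ := ih
    obtain ⟨L2, h2⟩ := hQ W K
    refine ⟨max L1 L2, fun W' hW' i hi => ?_⟩
    rcases Nat.lt_succ_iff_lt_or_eq.mp hi with hi | rfl
    · exact h1 W' (hW'.mono (le_max_left _ _)) i hi
    · exact h2 W' (hW'.mono (le_max_right _ _))

theorem baire_dichotomy (Q H : (ℕ → Bool) → (ℕ → Bool)) (hQ : PC Q) (hH : PC H) :
    (∃ (c : OCode) (W0 : ℕ → Bool) (L0 : ℕ),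
      (∀ W, Agree L0 W0 W → ∀ m v, v ∈ eval (chi (Q W)) c m → v = (H W m).toNat) ∧
      (∀ W, Agree L0 W0 W → ∀ L m, ∃ W', Agree L W W' ∧ (eval (chi (Q W')) c m).Dom)) ∨
    (∀ᶠ W in residual (ℕ → Bool), ∀ c, eval (chi (Q W)) c ≠ chi (H W)) := by
  by_contra hno
  rw [not_or] at hno
  obtain ⟨hno, hres⟩ := hno
  push Not at hno
  apply hres
  let O : OCode → Set (ℕ → Bool) := fun c =>
    {W | (∃ m v, v ∈ eval (chi (Q W)) c m ∧ v ≠ (H W m).toNat) ∨
      (∃ L m, ∀ W', Agree L W W' → ¬ (eval (chi (Q W')) c m).Dom)}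
  have hopen : ∀ c, IsOpen (O c) := by
    intro c
    apply isOpen_of_agree
    rintro W (⟨m, v, hv, hne⟩ | ⟨L, m, hL⟩)
    · obtain ⟨K, hK⟩ := OCode.use _ _ _ _ hv
      obtain ⟨L1, h1⟩ := hQ.upto W K
      obtain ⟨L2, h2⟩ := hH W m
      refine ⟨max L1 L2, fun W' hW' => Or.inl ⟨m, v, ?_, ?_⟩⟩
      · exact OCode.mono (restr_chi_le (h1 W' (hW'.mono (le_max_left _ _)))) _ _ _ hK
      · rw [h2 W' (hW'.mono (le_max_right _ _))]
        exact hne
    · exact ⟨L, fun W' hW' => Or.inr ⟨L, m, fun W'' hW'' => hL W'' (hW'.trans hW'')⟩⟩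
  have hdense : ∀ c, Dense (O c) := by
    intro c
    rw [dense_iff_inter_open]
    rintro U hU ⟨W0, hW0⟩
    obtain ⟨L0, hL0⟩ := exists_agree_of_isOpen hU hW0
    by_cases h1 : ∀ W, Agree L0 W0 W → ∀ m v, v ∈ eval (chi (Q W)) c m → v = (H W m).toNat
    · obtain ⟨W, hW, L, m, hWL⟩ := hno c W0 L0 h1
      exact ⟨W, hL0 W hW, Or.inr ⟨L, m, hWL⟩⟩
    · push Not at h1
      obtain ⟨W, hW, m, v, hv, hne⟩ := h1
      exact ⟨W, hL0 W hW, Or.inl ⟨m, v, hv, hne⟩⟩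
  rw [eventually_countable_forall]
  intro c
  filter_upwards [residual_of_dense_open (hopen c) (hdense c)] with W hW hc
  rcases hW with ⟨m, v, hv, hne⟩ | ⟨L, m, hL⟩
  · rw [hc] at hv
    exact hne (Part.mem_some_iff.1 hv)
  · apply hL W (Agree.refl L W)
    rw [hc]
    trivial

end Vale.Agent.P327
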