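import Vale.Agent.P327.Rows
import Vale.Agent.P327.Baire

/-!
Computability lemmas: list constructions with computable functions, and reductions by rows.
-/

namespace Vale.Agent.P327

open Part

theorem computable_filter_range {b : ℕ → ℕ} {p : ℕ → ℕ → Bool} (hb : Computable b)
    (hp : Computable₂ p) :
    Computable (fun m => (List.range (b m)).filter (fun k => p m k)) := by
  have h1 : Computable₂ (fun (m : ℕ) (q : ℕ × List ℕ) => q.2 ++ cond (p m q.1) [q.1] []) := by
    refine Computable.list_append.comp (Computable.snd.comp Computable.snd) ?_
    refine Computable.cond (hp.comp Computable.fst (Computable.fst.comp Computable.snd)) ?_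
      (Computable.const [])
    exact Computable.list_cons.comp (Computable.fst.comp Computable.snd) (Computable.const [])
  have h2 := Computable.nat_rec hb (Computable.const ([] : List ℕ)) h1
  refine h2.of_eq fun m => ?_
  induction b m with
  | zero => rfl
  | succ n ih =>
    rw [List.range_succ, List.filter_append]
    simp only [ih]
    cases hpn : p m n <;> simp [hpn]

theorem computable_flatMap {r : ℕ → List ℕ} (hr : Computable r) :
    Computable (fun l : List ℕ => l.flatMap r) := by
  have h1 : Computable₂ (fun (l : List ℕ) (q : ℕ × List ℕ) => q.2 ++ r ((l[q.1]?).getD 0)) := by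
    refine Computable.list_append.comp (Computable.snd.comp Computable.snd) (hr.comp ?_)
    exact Computable.option_getD
      (Computable.list_getElem?.comp Computable.fst (Computable.fst.comp Computable.snd))
      (Computable.const 0)
  have h2 := Computable.nat_rec Computable.list_length (Computable.const ([] : List ℕ)) h1
  refine h2.of_eq fun l => ?_
  have key : ∀ n, n ≤ l.length →
      Nat.rec (motive := fun _ => List ℕ) [] (fun y IH => IH ++ r ((l[y]?).getD 0)) n =
        (l.take n).flatMap r := by
    intro n
    induction n with
    | zero => intro _; simp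
    | succ n ih =>
      intro hn
      have hn' : n < l.length := hn
      simp only [ih (Nat.le_of_succ_le hn)]
      rw [List.take_add_one, List.flatMap_append, List.getElem?_eq_getElem hn']
      simp
  have := key l.length le_rfl
  rw [List.take_length] at this
  exact this

theorem computable_table (col : ℕ → ℕ → Bool) (hcol : ∀ k, Computable (col k)) (L : ℕ) :
    Computable₂ (fun m k => decide (k < L) && col k m) := by
  induction L with
  | zero =>
    refine (Computable.const false).of_eq fun p => ?_
    simp
  | succ L ih =>
    have h1 : Computable (fun p : ℕ × ℕ => decide (p.2 = L)) :=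
      ((Primrec.eq (α := ℕ)).decide.comp Primrec.snd (Primrec.const L)).to_comp
    have h2 := Computable.cond h1 ((hcol L).comp Computable.fst) ih
    refine h2.of_eq fun p => ?_
    obtain ⟨m, k⟩ := p
    rcases lt_trichotomy k L with hk | rfl | hk
    · have e1 : k ≠ L := by omega
      have e2 : k < L + 1 := by omega
      simp [e1, e2, hk]
    · simp
    · have e1 : k ≠ L := by omega
      have e2 : ¬ k < L + 1 := by omega
      have e3 : ¬ k < L := by omega
      simp [e1, e2, e3]

/-- Total functions recursive in the oracle `g`. -/
def TotIn (g : ℕ →. ℕ) (f : ℕ → ℕ) : Prop := Nat.RecursiveIn {g} (fun n => Part.some (f n))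

namespace TotIn

variable {g : ℕ →. ℕ} {f h : ℕ → ℕ}

theorem of_computable (hf : Computable f) : TotIn g f :=
  (Partrec.nat_iff.1 hf).recursiveIn

theorem comp (hf : TotIn g f) (hh : TotIn g h) : TotIn g (fun n => f (h n)) := by
  refine (Nat.RecursiveIn.comp hf hh).of_eq fun n => ?_
  simp

theorem pair (hf : TotIn g f) (hh : TotIn g h) : TotIn g (fun n => Nat.pair (f n) (h n)) := by
  refine (Nat.RecursiveIn.pair hf hh).of_eq fun n => ?_
  simp [Seq.seq]

theorem prec (hf : TotIn g f) (hh : TotIn g h) :
    TotIn g (fun p => Nat.rec (motive := fun _ => ℕ) (f (Nat.unpair p).1)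
      (fun y i => h (Nat.pair (Nat.unpair p).1 (Nat.pair y i))) (Nat.unpair p).2) := by
  refine (Nat.RecursiveIn.prec hf hh).of_eq fun p => ?_
  simp only
  induction (Nat.unpair p).2 with
  | zero => rfl
  | succ n ih =>
    simp only [Part.bind_eq_bind] at ih ⊢
    rw [ih, Part.bind_some]

theorem oracle (W : ℕ → Bool) : TotIn (chi W) (fun n => (W n).toNat) :=
  Nat.RecursiveIn.oracle _ rfl

end TotIn

theorem totIn_rowEval {r : ℕ → List ℕ} (hr : Computable r) (W : ℕ → Bool) :
    TotIn (chi W) (fun m => (rowEval (r m) W).toNat) := by
  have hidx : Computable (fun q : ℕ =>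
      ((r (Nat.unpair q).1)[(Nat.unpair (Nat.unpair q).2).1]?).getD 0) := by
    refine Computable.option_getD (Computable.list_getElem?.comp
      (hr.comp (Computable.fst.comp Computable.unpair)) ?_) (Computable.const 0)
    exact Computable.fst.comp (Computable.unpair.comp (Computable.snd.comp Computable.unpair))
  have hacc : Computable (fun q : ℕ => (Nat.unpair (Nat.unpair q).2).2) :=
    Computable.snd.comp (Computable.unpair.comp (Computable.snd.comp Computable.unpair))
  have haddmod : Computable (fun z : ℕ => ((Nat.unpair z).1 + (Nat.unpair z).2) % 2) := by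
    apply Primrec.to_comp
    exact Primrec.nat_mod.comp (Primrec.nat_add.comp (Primrec.fst.comp Primrec.unpair)
      (Primrec.snd.comp Primrec.unpair)) (Primrec.const 2)
  have hstep : TotIn (chi W) (fun q : ℕ => ((Nat.unpair (Nat.unpair q).2).2 +
      (W (((r (Nat.unpair q).1)[(Nat.unpair (Nat.unpair q).2).1]?).getD 0)).toNat) % 2) := by
    have := (TotIn.of_computable (g := chi W) haddmod).comp
      ((TotIn.of_computable hacc).pair ((TotIn.oracle W).comp (TotIn.of_computable hidx)))
    simpa using this
  have hzero : TotIn (chi W) (fun _ => 0) := TotIn.of_computable (Computable.const 0)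
  have hprec := hzero.prec hstep
  have hlen : Computable (fun m : ℕ => Nat.pair m (r m).length) :=
    Primrec₂.natPair.to_comp.comp Computable.id (Computable.list_length.comp hr)
  have hfin := hprec.comp (TotIn.of_computable hlen)
  have key : ∀ m n, n ≤ (r m).length →
      Nat.rec (motive := fun _ => ℕ) 0
        (fun y i => (i + (W (((r m)[y]?).getD 0)).toNat) % 2) n =
        (rowEval ((r m).take n) W).toNat := by
    intro m n
    induction n with
    | zero => intro _; simp
    | succ n ih =>
      intro hn
      have hn' : n < (r m).length := hn
      simp only [ih (Nat.le_of_succ_le hn)]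
      rw [List.take_add_one, rowEval_append, List.getElem?_eq_getElem hn']
      simp only [Option.getD_some, Option.toList_some, rowEval_cons, rowEval_nil, Bool.xor_false]
      cases rowEval (List.take n (r m)) W <;> cases W (r m)[n] <;> rfl
  unfold TotIn at hfin ⊢
  refine hfin.of_eq fun m => ?_
  simp only [Nat.unpair_pair]
  rw [key m _ le_rfl, List.take_length]

end Vale.Agent.P327
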