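import Mathlib

/-!
A selection principle for recursive functions of two arguments.
-/

namespace Vale.Agent.P327

open Part Encodable
open Nat.Partrec (Code)

theorem exists_search {α β σ : Type*} [Primcodable α] [Primcodable β] [Primcodable σ]
    {E : α × β →. σ} (hE : Partrec E) :
    ∃ S : α →. β × σ, Partrec S ∧ (∀ a b v, (b, v) ∈ S a → v ∈ E (a, b)) ∧
      (∀ a, (∃ b, (E (a, b)).Dom) → (S a).Dom) := by
  obtain ⟨c, hc⟩ := Code.exists_code.1 hE
  let f : α → ℕ → Option (β × σ) := fun a n =>
    (decode (α := ℕ × β) n).bind fun kb =>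
      (Code.evaln kb.1 c (encode (a, kb.2))).bind fun w =>
        (decode (α := σ) w).map fun v => (kb.2, v)
  have hf : Computable₂ f := by
    apply Primrec₂.to_comp
    refine Primrec.option_bind (Primrec.decode.comp Primrec.snd) ?_
    refine Primrec.option_bind ?_ ?_
    · refine Code.primrec_evaln.comp (Primrec.pair (Primrec.pair
        (Primrec.fst.comp Primrec.snd) (Primrec.const c)) ?_)
      exact Primrec.encode.comp (Primrec.pair (Primrec.fst.comp Primrec.fst)
        (Primrec.snd.comp Primrec.snd))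
    · refine Primrec.option_map (Primrec.decode.comp Primrec.snd) ?_
      exact Primrec.pair (Primrec.snd.comp (Primrec.snd.comp (Primrec.fst.comp Primrec.fst)))
        Primrec.snd
  have hev : ∀ (a : α) (b : β) (w : ℕ), w ∈ c.eval (encode (a, b)) ↔ ∃ v ∈ E (a, b), encode v = w := by
    intro a b w
    rw [hc]
    simp
  refine ⟨fun a => Nat.rfindOpt (f a), Partrec.rfindOpt hf, ?_, ?_⟩
  · intro a b v h
    obtain ⟨n, hn⟩ := Nat.rfindOpt_spec h
    simp only [f, Option.mem_def, Option.bind_eq_some_iff, Option.map_eq_some_iff] at hn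
    obtain ⟨⟨k, b'⟩, _, w, hw, v', hv', heq⟩ := hn
    simp only [Prod.mk.injEq] at heq
    obtain ⟨rfl, rfl⟩ := heq
    have h1 := Code.evaln_sound hw
    obtain ⟨v'', hv'', he⟩ := (hev a b' w).1 h1
    rw [← he, encodek] at hv'
    simp only [Option.some.injEq] at hv'
    rw [← hv']
    exact hv''
  · rintro a ⟨b, hb⟩
    rw [Nat.rfindOpt_dom]
    have h1 : encode ((E (a, b)).get hb) ∈ c.eval (encode (a, b)) :=
      (hev a b _).2 ⟨_, Part.get_mem hb, rfl⟩
    obtain ⟨k, hk⟩ := Code.evaln_complete.1 h1
    refine ⟨encode (k, b), (b, (E (a, b)).get hb), ?_⟩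
    simp only [f, Option.mem_def, encodek, Option.bind_some]
    rw [Option.mem_def.1 hk]
    simp

end Vale.Agent.P327
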