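import Vale.Agent.P327.Strings
import Vale.Agent.P327.Search
import Vale.Agent.P327.Comp

/-!
An additive map `H` of Cantor space with finite dependence and `H W` reducible to `W` for all `W`
has uniformly computable rows.
-/

namespace Vale.Agent.P327

open OCode

theorem rowEval_congr {l : List ℕ} {W W' : ℕ → Bool} (h : ∀ k ∈ l, W k = W' k) :
    rowEval l W = rowEval l W' := by
  induction l with
  | nil => rfl
  | cons k l ih =>
    rw [rowEval_cons, rowEval_cons, h k (List.mem_cons_self),
      ih fun j hj => h j (List.mem_cons_of_mem _ hj)]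

theorem primrec_toNat : Primrec Bool.toNat := Primrec.dom_bool _

theorem computable_col {H : (ℕ → Bool) → (ℕ → Bool)}
    (hred : ∀ W, Nat.RecursiveIn {chi W} (chi (H W))) (k : ℕ) :
    Computable (fun m => H (single k) m) := by
  have h0 : Computable (fun n : ℕ => (decide (n = k)).toNat) :=
    (primrec_toNat.comp ((Primrec.eq (α := ℕ)).decide.comp Primrec.id (Primrec.const k))).to_comp
  have h1 : Nat.Partrec (chi (single k)) := Partrec.nat_iff.1 h0
  have h2 : Nat.Partrec (chi (H (single k))) :=
    Nat.RecursiveIn.partrec_of_oracle (fun g hg => by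
      rw [Set.mem_singleton_iff] at hg
      rw [hg]
      exact h1) (hred (single k))
  have h3 : Computable (fun m => (H (single k) m).toNat) := Partrec.nat_iff.2 h2
  have h4 : Computable (fun m => decide ((H (single k) m).toNat = 1)) :=
    ((Primrec.eq (α := ℕ)).decide.comp Primrec.id (Primrec.const 1)).to_comp.comp h3
  refine h4.of_eq fun m => ?_
  cases H (single k) m <;> rfl

theorem lt_length_of_getElem? {ρ : List Bool} {i : ℕ} {b : Bool} (h : ρ[i]? = some b) :
    i < ρ.length := by
  by_contra hcon
  rw [List.getElem?_eq_none (by omega)] at h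
  exact absurd h (by simp)

theorem extract_rows {H : (ℕ → Bool) → (ℕ → Bool)} (hlin : IsLin H)
    (hred : ∀ W, Nat.RecursiveIn {chi W} (chi (H W))) :
    ∃ r : ℕ → List ℕ, Computable r ∧ ∀ W m, H W m = rowEval (r m) W := by
  obtain ⟨c, W0, L0, h1, h2⟩ := baire_good H (fun W m => by
      obtain ⟨N, hN⟩ := hlin.congr_of_agree m
      exact ⟨N, fun W' hW' => hN W W' hW'⟩) (fun W => exists_code (hred W))
  let E : (List Bool × ℕ) × List Bool →. ℕ :=
    fun q => eval (fo ((seg W0 L0 ++ q.1.1) ++ q.2)) c q.1.2
  have hE : Partrec E := (partrec_eval_fo c).comp (Computable.pair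
    (Computable.list_append.comp (Computable.list_append.comp (Computable.const _)
      (Computable.fst.comp Computable.fst)) Computable.snd) (Computable.snd.comp Computable.fst))
  obtain ⟨S, hS, hSspec, hSdom⟩ := exists_search hE
  have hdom : ∀ a, (S a).Dom := by
    rintro ⟨ξ, m⟩
    apply hSdom
    have hW : Ext (seg W0 L0 ++ ξ) (extd (seg W0 L0 ++ ξ)) := ext_extd _
    have hA : Agree L0 W0 (extd (seg W0 L0 ++ ξ)) := ext_seg_iff.1 hW.of_append
    obtain ⟨W', hW', hd⟩ := h2 _ hA (seg W0 L0 ++ ξ).length m
    have hW'' : Ext (seg W0 L0 ++ ξ) W' := by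
      intro i b hb
      rw [hW' i (lt_length_of_getElem? hb)]
      exact hW i b hb
    obtain ⟨τ, hτ⟩ := exists_fin_ext hW'' (Part.get_mem hd)
    exact ⟨τ, Part.dom_iff_mem.2 ⟨_, hτ⟩⟩
  let s : List Bool × ℕ → List Bool × ℕ := fun a => (S a).get (hdom a)
  have hs : Computable s := hS.of_eq_tot (fun a => Part.get_mem _)
  have hsspec : ∀ ξ m, (s (ξ, m)).2 ∈ eval (fo ((seg W0 L0 ++ ξ) ++ (s (ξ, m)).1)) c m :=
    fun ξ m => hSspec (ξ, m) (s (ξ, m)).1 (s (ξ, m)).2 (Part.get_mem (hdom (ξ, m)))
  have P1 : ∀ ξ m W, Ext ((seg W0 L0 ++ ξ) ++ (s (ξ, m)).1) W →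
      (s (ξ, m)).2 = (H W m).toNat := by
    intro ξ m W hW
    exact h1 W (ext_seg_iff.1 hW.of_append.of_append) m _
      (OCode.mono (fo_le hW) _ _ _ (hsspec ξ m))
  let B : ℕ → ℕ := fun m => (s ([], m)).1.length
  have hB : Computable B :=
    Computable.list_length.comp (Computable.fst.comp
      (hs.comp (Computable.pair (Computable.const []) Computable.id)))
  have P2 : ∀ m k, L0 + B m ≤ k → H (single k) m = false := by
    intro m k hk
    have hlen : ((seg W0 L0 ++ []) ++ (s ([], m)).1).length = L0 + B m := by simp [B]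
    have e1 := P1 [] m _ (ext_extd _)
    have e2 := P1 [] m (bxor (extd ((seg W0 L0 ++ []) ++ (s ([], m)).1)) (single k)) (by
      intro i b hb
      have hi := lt_length_of_getElem? hb
      have hne : i ≠ k := by omega
      have := ext_extd _ i b hb
      simp only [bxor, single, hne, decide_false, Bool.xor_false]
      exact this)
    rw [hlin.add_apply, e1] at e2
    revert e2
    cases H (extd ((seg W0 L0 ++ []) ++ (s ([], m)).1)) m <;> cases H (single k) m <;> simp
  have P3 : ∀ m W, H W m =
      rowEval ((List.range (L0 + B m)).filter (fun k => H (single k) m)) W :=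
    fun m W => hlin.apply_eq_rowEval m _ (P2 m) W
  have P3' : ∀ m W W', Agree (L0 + B m) W W' → H W' m = H W m := by
    intro m W W' h
    rw [P3 m W, P3 m W']
    apply rowEval_congr
    intro k hk
    exact h k (List.mem_range.1 (List.mem_filter.1 hk).1)
  have P4 : ∀ m Z, Agree L0 W0 Z →
      (s ((List.range (B m)).map (fun i => Z (L0 + i)), m)).2 = (H Z m).toNat := by
    intro m Z hZ
    have hseg : seg W0 L0 ++ (List.range (B m)).map (fun i => Z (L0 + i)) =
        seg Z (L0 + B m) := by
      rw [seg_add]
      congr 1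
      unfold seg
      apply List.map_congr_left
      intro i hi
      exact (hZ i (List.mem_range.1 hi)).symm
    rw [P1 _ m _ (ext_extd _)]
    congr 1
    apply P3'
    apply ext_seg_iff.1
    rw [← hseg]
    exact (ext_extd _).of_append
  let Z0 : ℕ → Bool := trunc W0 L0
  have hZ0 : Agree L0 W0 Z0 := by
    intro i hi
    simp [Z0, trunc, hi]
  have hZ0' : ∀ i, Z0 (L0 + i) = false := by
    intro i
    simp [Z0, trunc]
  let v0 : ℕ → ℕ := fun m => (s ((List.range (B m)).map (fun _ => false), m)).2
  let v1 : ℕ → ℕ → ℕ := fun m k => (s ((List.range (B m)).map (fun i => decide (L0 + i = k)), m)).2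
  have hv0 : ∀ m, v0 m = (H Z0 m).toNat := by
    intro m
    rw [← P4 m Z0 hZ0]
    simp only [v0, hZ0']
  have hv1 : ∀ m k, L0 ≤ k → v1 m k = (xor (H Z0 m) (H (single k) m)).toNat := by
    intro m k hk
    rw [← hlin.add_apply, ← P4 m (bxor Z0 (single k))]
    · simp only [v1, bxor, hZ0', single, Bool.false_xor]
    · intro i hi
      have hne : i ≠ k := by omega
      simp [bxor, single, hne, hZ0 i hi]
  have hcv0 : Computable v0 := by
    have hp : Primrec (fun b : ℕ => (List.range b).map (fun _ => false)) :=
      Primrec.list_map Primrec.list_range (Primrec.const false).to₂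
    exact Computable.snd.comp (hs.comp (Computable.pair (hp.to_comp.comp hB) Computable.id))
  have hcv1 : Computable₂ v1 := by
    have hp : Primrec (fun q : ℕ × ℕ => (List.range q.1).map (fun i => decide (L0 + i = q.2))) := by
      refine Primrec.list_map (Primrec.list_range.comp Primrec.fst) ?_
      exact (Primrec.eq (α := ℕ)).decide.comp
        (Primrec.nat_add.comp (Primrec.const L0) Primrec.snd) (Primrec.snd.comp Primrec.fst)
    exact Computable.snd.comp (hs.comp (Computable.pair
      (hp.to_comp.comp (Computable.pair (hB.comp Computable.fst) Computable.snd)) Computable.fst))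
  let ent : ℕ → ℕ → Bool := fun m k =>
    (decide (k < L0) && H (single k) m) || (decide (L0 ≤ k) && decide (v0 m ≠ v1 m k))
  have hent : ∀ m k, ent m k = H (single k) m := by
    intro m k
    by_cases hk : k < L0
    · have hk' : ¬ L0 ≤ k := by omega
      simp [ent, hk, hk']
    · have hk' : L0 ≤ k := by omega
      simp only [ent, hk, hk', hv0, hv1 m k hk']
      cases H Z0 m <;> cases H (single k) m <;> simp
  have hcent : Computable₂ ent := by
    have t1 := computable_table (fun k m => H (single k) m) (computable_col hred) L0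
    have t2 : Computable₂ (fun (m k : ℕ) => decide (L0 ≤ k)) :=
      (Primrec.nat_le.decide.comp (Primrec.const L0) Primrec.snd).to_comp
    have t3 : Computable₂ (fun (m k : ℕ) => decide (v0 m ≠ v1 m k)) := by
      have hp : Primrec (fun q : ℕ × ℕ => decide (q.1 ≠ q.2)) :=
        (Primrec.not.comp ((Primrec.eq (α := ℕ)).decide.comp Primrec.fst Primrec.snd)).of_eq
          fun q => by simp
      exact hp.to_comp.comp (Computable.pair (hcv0.comp Computable.fst) hcv1)
    exact Primrec.or.to_comp.comp t1 (Primrec.and.to_comp.comp t2 t3)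
  refine ⟨fun m => (List.range (L0 + B m)).filter (fun k => ent m k), ?_, ?_⟩
  · exact computable_filter_range
      ((Primrec.nat_add.to_comp).comp (Computable.const L0) hB) hcent
  · intro W m
    simp only [hent]
    exact P3 m W

end Vale.Agent.P327
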