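import Vale.Agent.P327.Use

/-!
Evaluation of a fixed oracle program on finite oracles is a recursive function of the finite oracle.
-/

namespace Vale.Agent.P327

open Part

/-- The finite oracle given by a list of booleans. -/
def fo (σ : List Bool) : ℕ →. ℕ := fun n => Part.ofOption ((σ[n]?).map Bool.toNat)

namespace OCode

theorem partrec_eval_fo (c : OCode) :
    Partrec (fun p : List Bool × ℕ => eval (fo p.1) c p.2) := by
  induction c with
  | zero => exact (Computable.const 0).partrec
  | succ => exact (Computable.succ.comp Computable.snd).partrec
  | left => exact (Computable.fst.comp (Computable.unpair.comp Computable.snd)).partrec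
  | right => exact (Computable.snd.comp (Computable.unpair.comp Computable.snd)).partrec
  | oracle =>
    have h1 : Computable (fun p : List Bool × ℕ => (p.1[p.2]?).map Bool.toNat) := by
      refine Computable.option_map (Computable.list_getElem?.comp Computable.fst Computable.snd) ?_
      have : Primrec Bool.toNat := Primrec.dom_bool _
      exact (this.to_comp.comp Computable.snd).to₂
    exact Computable.ofOption h1
  | pair a b iha ihb =>
    have : Partrec (fun p : List Bool × ℕ =>
        (eval (fo p.1) a p.2).bind fun x => (eval (fo p.1) b p.2).map fun y => Nat.pair x y) := by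
      refine Partrec.bind iha ?_
      refine Partrec.map (ihb.comp Computable.fst) ?_
      exact (Primrec₂.natPair.to_comp.comp (Computable.snd.comp Computable.fst) Computable.snd).to₂
    refine this.of_eq fun p => ?_
    apply Part.ext
    intro v
    rw [mem_eval_pair]
    simp only [Part.mem_bind_iff, Part.mem_map_iff]
    constructor
    · rintro ⟨x, hx, y, hy, rfl⟩
      exact ⟨x, hx, y, hy, rfl⟩
    · rintro ⟨x, hx, y, hy, rfl⟩
      exact ⟨x, hx, y, hy, rfl⟩
  | comp a b iha ihb =>
    exact Partrec.bind ihb
      (iha.comp (Computable.pair (Computable.fst.comp Computable.fst) Computable.snd)).to₂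
  | prec a b iha ihb =>
    have hc : Computable (fun r : (List Bool × ℕ) × (ℕ × ℕ) =>
        (r.1.1, Nat.pair (Nat.unpair r.1.2).1 (Nat.pair r.2.1 r.2.2))) := by
      refine Computable.pair (Computable.fst.comp Computable.fst) ?_
      refine Primrec₂.natPair.to_comp.comp
        (Computable.fst.comp (Computable.unpair.comp (Computable.snd.comp Computable.fst))) ?_
      exact Primrec₂.natPair.to_comp.comp (Computable.fst.comp Computable.snd)
        (Computable.snd.comp Computable.snd)
    have hh : Partrec₂ (fun (p : List Bool × ℕ) (q : ℕ × ℕ) =>
          eval (fo p.1) b (Nat.pair (Nat.unpair p.2).1 (Nat.pair q.1 q.2))) :=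
      ihb.comp hc
    have hg : Partrec (fun p : List Bool × ℕ => eval (fo p.1) a (Nat.unpair p.2).1) :=
      iha.comp (Computable.pair Computable.fst
          (Computable.fst.comp (Computable.unpair.comp Computable.snd)))
    exact Partrec.nat_rec (Computable.snd.comp (Computable.unpair.comp Computable.snd)) hg hh
  | rfind a iha =>
    have : Partrec (fun p : List Bool × ℕ =>
        Nat.rfind fun n => (eval (fo p.1) a (Nat.pair p.2 n)).map fun m => decide (m = 0)) := by
      refine Partrec.rfind ?_
      refine Partrec.map (iha.comp (Computable.pair (Computable.fst.comp Computable.fst)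
        (Primrec₂.natPair.to_comp.comp (Computable.snd.comp Computable.fst) Computable.snd))) ?_
      have : Primrec (fun m : ℕ => decide (m = 0)) :=
        (Primrec.eq (α := ℕ)).decide.comp Primrec.id (Primrec.const 0)
      exact (this.to_comp.comp Computable.snd).to₂
    exact this

end OCode

end Vale.Agent.P327
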