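import Vale.Agent.P327.Join

/-!
A comeagre set of fixed degrees forces a degree-preserving bijection to fix every degree
(after Jockusch and Posner).
-/

namespace Vale.Agent.P327

open OCode Filter

theorem exists_of_residual {p : (ℕ → Bool) → Prop} (h : ∀ᶠ W in residual (ℕ → Bool), p W) :
    ∃ W, p W := by
  obtain ⟨W, hW⟩ := (dense_of_mem_residual h).nonempty
  exact ⟨W, hW⟩

theorem chi_injective {X Y : ℕ → Bool} (h : chi X = chi Y) : X = Y := by
  funext n
  have h1 : Part.some (X n).toNat = Part.some (Y n).toNat := congrFun h n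
  have h2 := Part.some_inj.1 h1
  revert h2
  cases X n <;> cases Y n <;> simp

theorem continuous_bxor_right (A : ℕ → Bool) : Continuous (fun W => bxor W A) := by
  refine continuous_pi fun n => ?_
  exact (continuous_of_discreteTopology (f := fun b : Bool => xor b (A n))).comp
    (continuous_apply n)

theorem isOpenMap_bxor_right (A : ℕ → Bool) : IsOpenMap (fun W => bxor W A) := by
  intro U hU
  have : (fun W => bxor W A) '' U = (fun W => bxor W A) ⁻¹' U := by
    ext W
    constructor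
    · rintro ⟨V, hV, rfl⟩
      have : bxor (bxor V A) A = V := by funext n; simp [bxor]
      simpa [this] using hV
    · intro hW
      refine ⟨bxor W A, hW, ?_⟩
      funext n
      simp [bxor]
  rw [this]
  exact hU.preimage (continuous_bxor_right A)

theorem fix_join {F G : (ℕ → Bool) → (ℕ → Bool)} (hFG : ∀ W, F (G W) = W)
    (hiff : ∀ A B, TR A B ↔ TR (F A) (F B)) {X Y : ℕ → Bool}
    (hX : TR (F X) X ∧ TR X (F X)) (hY : TR (F Y) Y ∧ TR Y (F Y)) :
    TR (F (bjoin X Y)) (bjoin X Y) ∧ TR (bjoin X Y) (F (bjoin X Y)) := by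
  constructor
  · have h1 : TR X (G (bjoin X Y)) := by
      rw [hiff, hFG]
      exact hX.1.trans (TR.left_join X Y)
    have h2 : TR Y (G (bjoin X Y)) := by
      rw [hiff, hFG]
      exact hY.1.trans (TR.right_join X Y)
    have h3 := (hiff _ _).1 (TR.join_le h1 h2)
    rwa [hFG] at h3
  · exact TR.join_le (hX.2.trans ((hiff _ _).1 (TR.left_join X Y)))
      (hY.2.trans ((hiff _ _).1 (TR.right_join X Y)))

theorem jp_aux {F G : (ℕ → Bool) → (ℕ → Bool)} (hFG : ∀ W, F (G W) = W)
    (hiff : ∀ A B, TR A B ↔ TR (F A) (F B))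
    (hres : ∀ᶠ W in residual (ℕ → Bool), TR (F W) W ∧ TR W (F W)) (A : ℕ → Bool) :
    TR (F A) A ∧ TR (G A) A := by
  have hres2 : ∀ᶠ W in residual (ℕ → Bool),
      TR (F (bxor W A)) (bxor W A) ∧ TR (bxor W A) (F (bxor W A)) :=
    (tendsto_residual_of_isOpenMap (continuous_bxor_right A) (isOpenMap_bxor_right A)).eventually
      hres
  obtain ⟨G1, hG1, hG1'⟩ := exists_of_residual (hres.and hres2)
  have hP := fix_join hFG hiff hG1 hG1'
  have hcodes : ∀ᶠ G3 in residual (ℕ → Bool), ∀ c : OCode, ∀ Z,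
      eval (chi (bjoin G1 (bxor G1 A))) c = chi Z → TR Z (bjoin G3 (bxor G3 A)) → TR Z A := by
    rw [eventually_countable_forall]
    intro c
    by_cases hZ : ∃ Z, eval (chi (bjoin G1 (bxor G1 A))) c = chi Z ∧ ¬ TR Z A
    · obtain ⟨Z, hZc, hZA⟩ := hZ
      filter_upwards [jp1 A Z hZA] with G3 hG3 Z' hZ' hTR
      have : Z' = Z := chi_injective (hZ'.symm.trans hZc)
      subst this
      exact absurd hTR hG3
    · push Not at hZ
      exact Eventually.of_forall fun G3 Z hZc _ => hZ Z hZc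
  obtain ⟨G3, ⟨hG3, hG3'⟩, hc⟩ := exists_of_residual ((hres.and hres2).and hcodes)
  have hQ := fix_join hFG hiff hG3 hG3'
  have key : ∀ Z, TR Z (bjoin G1 (bxor G1 A)) → TR Z (bjoin G3 (bxor G3 A)) → TR Z A := by
    intro Z h1 h2
    obtain ⟨c, hcZ⟩ := exists_code h1
    exact hc c Z hcZ h2
  have hinv : ∀ P, TR A P → TR P (F P) → TR (G A) P := by
    intro P hAP hPF
    have h1 : TR (G A) (G P) := by
      rw [hiff, hFG, hFG]
      exact hAP
    have h2 : TR (G P) P := by
      rw [hiff, hFG]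
      exact hPF
    exact h1.trans h2
  refine ⟨key _ ?_ ?_, key _ ?_ ?_⟩
  · exact ((hiff _ _).1 (TR.of_join_bxor G1 A)).trans hP.1
  · exact ((hiff _ _).1 (TR.of_join_bxor G3 A)).trans hQ.1
  · exact hinv _ (TR.of_join_bxor G1 A) hP.2
  · exact hinv _ (TR.of_join_bxor G3 A) hQ.2

theorem jp {F G : (ℕ → Bool) → (ℕ → Bool)} (hFG : ∀ W, F (G W) = W) (hGF : ∀ W, G (F W) = W)
    (hiff : ∀ A B, TR A B ↔ TR (F A) (F B))
    (hres : ∀ᶠ W in residual (ℕ → Bool), TR (F W) W ∧ TR W (F W)) (A : ℕ → Bool) :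
    TR (F A) A ∧ TR A (F A) := by
  refine ⟨(jp_aux hFG hiff hres A).1, ?_⟩
  have := (jp_aux hFG hiff hres (F A)).2
  rwa [hGF] at this

end Vale.Agent.P327
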