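import Vale.Agent.P327.Extract

/-!
Additive homeomorphisms of Cantor space that respect Turing reducibility are computable.
-/

namespace Vale.Agent.P327

open OCode

/-- The left shift. -/
def shiftL (X : ℕ → Bool) : ℕ → Bool := fun n => X (n + 1)

theorem isLin_shiftL : IsLin shiftL where
  add X Y := rfl
  fin m := ⟨m + 2, fun W hW => hW (m + 1) (by omega)⟩

theorem shiftL_red (X : ℕ → Bool) : Nat.RecursiveIn {chi X} (chi (shiftL X)) :=
  (TotIn.oracle X).comp (TotIn.of_computable Computable.succ)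

theorem inverse_rows {F G : (ℕ → Bool) → (ℕ → Bool)} (hF : IsLin F) (hG : IsLin G)
    (hFG : ∀ W, F (G W) = W) (hGF : ∀ W, G (F W) = W)
    (hmono : ∀ A B, Nat.RecursiveIn {chi B} (chi A) → Nat.RecursiveIn {chi (F B)} (chi (F A))) :
    ∃ T : ℕ → List ℕ, Computable T ∧ ∀ W n, G W n = rowEval (T n) W := by
  have hH : IsLin (fun W => F (shiftL (G W))) := hF.comp (isLin_shiftL.comp hG)
  have hred : ∀ W, Nat.RecursiveIn {chi W} (chi (F (shiftL (G W)))) := by
    intro W
    have := hmono (shiftL (G W)) (G W) (shiftL_red _)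
    rwa [hFG] at this
  obtain ⟨r, hr, hrow⟩ := extract_rows hH hred
  obtain ⟨C, hC⟩ := hG.exists_row 0
  refine ⟨fun n => Nat.rec (motive := fun _ => List ℕ) C (fun _ l => l.flatMap r) n, ?_, ?_⟩
  · exact Computable.nat_rec (h := fun (_ : ℕ) (q : ℕ × List ℕ) => q.2.flatMap r) Computable.id
      (Computable.const C) ((computable_flatMap hr).comp (Computable.snd.comp Computable.snd))
  · intro W n
    induction n generalizing W with
    | zero => exact hC W
    | succ n ih =>
      have e1 : G W (n + 1) = G (F (shiftL (G W))) n := by rw [hGF]; rfl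
      rw [e1, ih]
      simp only [rowEval_flatMap]
      congr 1
      funext k
      exact hrow W k

theorem red_of_rows {G : (ℕ → Bool) → (ℕ → Bool)} {T : ℕ → List ℕ} (hT : Computable T)
    (h : ∀ W n, G W n = rowEval (T n) W) (W : ℕ → Bool) :
    Nat.RecursiveIn {chi W} (chi (G W)) := by
  have := totIn_rowEval hT W
  unfold TotIn at this
  refine this.of_eq fun n => ?_
  show Part.some (rowEval (T n) W).toNat = Part.some (G W n).toNat
  rw [h W n]

theorem linear_rigid {F G : (ℕ → Bool) → (ℕ → Bool)} (hF : IsLin F) (hG : IsLin G)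
    (hFG : ∀ W, F (G W) = W) (hGF : ∀ W, G (F W) = W)
    (hiff : ∀ A B, Nat.RecursiveIn {chi B} (chi A) ↔ Nat.RecursiveIn {chi (F B)} (chi (F A))) :
    (∃ T : ℕ → List ℕ, Computable T ∧ ∀ W n, F W n = rowEval (T n) W) ∧
    (∃ T : ℕ → List ℕ, Computable T ∧ ∀ W n, G W n = rowEval (T n) W) := by
  refine ⟨inverse_rows hG hF hGF hFG fun A B hAB => ?_,
    inverse_rows hF hG hFG hGF fun A B hAB => (hiff A B).1 hAB⟩
  rw [hiff, hFG, hFG]
  exact hAB

end Vale.Agent.P327
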