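import Vale.Agent.P327.Globalize
import Vale.Agent.P327.JP
import Vale.Agent.P327.Main

/-!
If the conjugate of the shift by a homeomorphism `F` is given, on a comeagre set, by one oracle
program, then the inverse of `F` is computable from its argument on a comeagre set.
-/

namespace Vale.Agent.P327

open OCode Filter

theorem uc_shiftL : UC shiftL := fun m => ⟨m + 2, fun _ _ h => h (m + 1) (by omega)⟩

theorem ue_shiftL : UE shiftL := fun a => ⟨a, fun _ _ h i hi => h (i + 1) (by omega)⟩

theorem isOpenMap_of_inverse {F G : (ℕ → Bool) → (ℕ → Bool)} (hFG : ∀ W, F (G W) = W)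
    (hGF : ∀ W, G (F W) = W) (hG : Continuous G) : IsOpenMap F := by
  intro U hU
  have : F '' U = G ⁻¹' U := by
    ext W
    constructor
    · rintro ⟨V, hV, rfl⟩
      simpa [hGF] using hV
    · intro hW
      exact ⟨G W, hW, hFG W⟩
  rw [this]
  exact hU.preimage hG

theorem isOpenMap_shiftL : IsOpenMap shiftL := by
  intro U hU
  apply isOpen_of_agree
  rintro Y ⟨W, hW, rfl⟩
  obtain ⟨L, hL⟩ := exists_agree_of_isOpen hU hW
  refine ⟨L, fun Y' hY' => ⟨fun n => Nat.casesOn n (W 0) Y', hL _ ?_, rfl⟩⟩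
  intro i hi
  cases i with
  | zero => rfl
  | succ i => exact hY' i (by omega)

theorem isOpenMap_iterate {H : (ℕ → Bool) → (ℕ → Bool)} (h : IsOpenMap H) (n : ℕ) :
    IsOpenMap (H^[n]) := by
  induction n with
  | zero => exact IsOpenMap.id
  | succ n ih => exact ih.comp h

theorem shiftL_iterate (X : ℕ → Bool) (n k : ℕ) : (shiftL^[n] X) k = X (k + n) := by
  induction n generalizing k with
  | zero => rfl
  | succ n ih =>
    rw [Function.iterate_succ_apply']
    show (shiftL^[n] X) (k + 1) = _
    rw [ih]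
    congr 1
    omega

theorem partrec_read1 (c' : OCode) :
    Partrec (fun (p : (List Bool × ℕ) × ℕ) => eval (fo p.1.1) (iter c' p.1.2) p.2) := by
  have hre : Computable (fun p : (List Bool × ℕ) × ℕ => (p.1.2, p.1.1, p.2)) :=
    Computable.pair (Computable.snd.comp Computable.fst)
      (Computable.pair (Computable.fst.comp Computable.fst) Computable.snd)
  have := (partrec_iter c').comp hre
  exact this

theorem partrec_read (c' cr : OCode) :
    Partrec (fun a : List Bool × ℕ => eval (eval (fo a.1) (iter c' a.2)) cr 0) := by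
  have horc : Partrec₂ (fun (a : List Bool × ℕ) => eval (fo a.1) (iter c' a.2)) :=
    partrec_read1 c'
  have hin : Computable (fun a : List Bool × ℕ => (a, 0)) :=
    Computable.pair Computable.id (Computable.const 0)
  have := (partrec_eval_param horc cr).comp hin
  exact this

theorem residual_orbit {H : (ℕ → Bool) → (ℕ → Bool)} (hHc : Continuous H) (hHo : IsOpenMap H)
    {c' : OCode} (h2 : ∀ W L m, ∃ W', Agree L W W' ∧ (eval (chi W') c' m).Dom) :
    ∀ᶠ W in residual (ℕ → Bool), ∀ n m, (eval (chi (H^[n] W)) c' m).Dom := by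
  have hDo : ∀ m, IsOpen {W | (eval (chi W) c' m).Dom} := by
    intro m
    apply isOpen_of_agree
    intro W hW
    obtain ⟨L, hL⟩ := OCode.use _ _ _ _ (Part.get_mem hW)
    exact ⟨L, fun W' hW' => Part.dom_iff_mem.2 ⟨_, OCode.mono (restr_chi_le hW') _ _ _ hL⟩⟩
  have hDd : ∀ m, Dense {W | (eval (chi W) c' m).Dom} := by
    intro m
    rw [dense_iff_inter_open]
    rintro U hU ⟨W, hW⟩
    obtain ⟨L, hL⟩ := exists_agree_of_isOpen hU hW
    obtain ⟨W', hW', hd⟩ := h2 W L m
    exact ⟨W', hL W' hW', hd⟩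
  rw [eventually_countable_forall]
  intro n
  rw [eventually_countable_forall]
  intro m
  exact (tendsto_residual_of_isOpenMap (hHc.iterate n) (isOpenMap_iterate hHo n)).eventually
    (residual_of_dense_open (hDo m) (hDd m))

theorem eval_iter_orbit {H : (ℕ → Bool) → (ℕ → Bool)} {c' : OCode}
    (h1 : ∀ W m v, v ∈ eval (chi W) c' m → v = (H W m).toNat) {W : ℕ → Bool}
    (hW : ∀ n m, (eval (chi (H^[n] W)) c' m).Dom) (n : ℕ) :
    eval (chi W) (iter c' n) = chi (H^[n] W) := by
  induction n with
  | zero => rfl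
  | succ n ih =>
    rw [eval_iter_succ, ih]
    funext m
    have hm := Part.get_mem (hW n m)
    rw [h1 _ _ _ hm] at hm
    rw [Function.iterate_succ_apply']
    exact Part.eq_some_iff.2 hm

theorem tr_of_read {G : (ℕ → Bool) → (ℕ → Bool)} {c' cr : OCode} {W : ℕ → Bool}
    (hval : ∀ n, eval (chi W) (subst (iter c' n) cr) 0 = Part.some (G W n).toNat) :
    TR (G W) W := by
  refine totIn_of_fin (partrec_read c' cr) ?_ ?_
  · intro n
    have hmem : (G W n).toNat ∈ eval (chi W) (subst (iter c' n) cr) 0 := by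
      rw [hval]
      exact Part.mem_some _
    obtain ⟨L, hL⟩ := OCode.use _ _ _ _ hmem
    refine ⟨L, Part.dom_iff_mem.2 ⟨(G W n).toNat, ?_⟩⟩
    have := OCode.mono (restr_le_fo_seg W (le_refl L)) _ _ _ hL
    rwa [eval_subst] at this
  · intro n L v hv
    have hv' : v ∈ eval (fo (seg W L)) (subst (iter c' n) cr) 0 := by
      rw [eval_subst]
      exact hv
    have := OCode.mono (fo_le (ext_seg_iff.2 (Agree.refl L W))) _ _ _ hv'
    rw [hval] at this
    exact Part.mem_some_iff.1 this

theorem generic_inverse {F G : (ℕ → Bool) → (ℕ → Bool)} (hFG : ∀ W, F (G W) = W)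
    (hGF : ∀ W, G (F W) = W) (hcF : UC F) (hcG : UC G) {c' : OCode}
    (h1 : ∀ W m v, v ∈ eval (chi W) c' m → v = (F (shiftL (G W)) m).toNat)
    (h2 : ∀ W L m, ∃ W', Agree L W W' ∧ (eval (chi W') c' m).Dom) :
    ∀ᶠ W in residual (ℕ → Bool), TR (G W) W := by
  have hHc : Continuous (fun W => F (shiftL (G W))) := (hcF.comp (uc_shiftL.comp hcG)).continuous
  have hHo : IsOpenMap (fun W => F (shiftL (G W))) :=
    (isOpenMap_of_inverse hFG hGF hcG.continuous).comp
      (isOpenMap_shiftL.comp (isOpenMap_of_inverse hGF hFG hcF.continuous))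
  obtain ⟨N0, hN0⟩ := hcG 0
  obtain ⟨cr, hcr⟩ := exists_table_code N0 (fun V _ => (G V 0).toNat)
    (fun W W' h => by funext _; rw [hN0 W W' h]) (fun W => Computable.const _)
  filter_upwards [residual_orbit hHc hHo h2] with W hW
  have hG : ∀ n, G ((fun W => F (shiftL (G W)))^[n] W) = shiftL^[n] (G W) := by
    intro n
    induction n with
    | zero => rfl
    | succ n ih =>
      rw [Function.iterate_succ_apply', Function.iterate_succ_apply', ← ih]
      exact hGF _
  refine tr_of_read (c' := c') (cr := cr) fun n => ?_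
  rw [eval_subst, eval_iter_orbit h1 hW, hcr, hG, shiftL_iterate, Nat.zero_add]

/-- Homeomorphisms that, together with their inverses, are uniformly invariant under finite
differences: generic computability of the inverse. -/
theorem generic_inverse_ue {F G : (ℕ → Bool) → (ℕ → Bool)} (hFG : ∀ W, F (G W) = W)
    (hGF : ∀ W, G (F W) = W) (hcF : UC F) (hcG : UC G) (heF : UE F) (heG : UE G)
    (hmono : ∀ A B, TR A B → TR (F A) (F B)) :
    ∀ᶠ W in residual (ℕ → Bool), TR (G W) W := by
  have hHc : UC (fun W => F (shiftL (G W))) := hcF.comp (uc_shiftL.comp hcG)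
  have hHe : UE (fun W => F (shiftL (G W))) := heF.comp (ue_shiftL.comp heG)
  have hred : ∀ W, TR (F (shiftL (G W))) W := by
    intro W
    have := hmono (shiftL (G W)) (G W) (shiftL_red _)
    rwa [hFG] at this
  obtain ⟨c, W0, L0, h1, h2⟩ := baire_good _ hHc.pc (fun W => exists_code (hred W))
  obtain ⟨c', h1', h2'⟩ := globalize hHc hHe h1 h2
  exact generic_inverse hFG hGF hcF hcG h1' h2'

theorem ue_rigid {F G : (ℕ → Bool) → (ℕ → Bool)} (hFG : ∀ W, F (G W) = W)
    (hGF : ∀ W, G (F W) = W) (hcF : UC F) (hcG : UC G) (heF : UE F) (heG : UE G)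
    (hiff : ∀ A B, TR A B ↔ TR (F A) (F B)) (A : ℕ → Bool) :
    TR (F A) A ∧ TR A (F A) := by
  have r1 : ∀ᶠ W in residual (ℕ → Bool), TR (G W) W :=
    generic_inverse_ue hFG hGF hcF hcG heF heG fun A B h => (hiff A B).1 h
  have r2 : ∀ᶠ W in residual (ℕ → Bool), TR (F W) W :=
    generic_inverse_ue hGF hFG hcG hcF heG heF fun A B h => by
      rw [hiff, hFG, hFG]
      exact h
  have r3 : ∀ᶠ W in residual (ℕ → Bool), TR (G (F W)) (F W) :=
    (tendsto_residual_of_isOpenMap hcF.continuous
      (isOpenMap_of_inverse hFG hGF hcG.continuous)).eventually r1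
  refine jp hFG hGF hiff ?_ A
  filter_upwards [r2, r3] with W h2 h3
  rw [hGF] at h3
  exact ⟨h2, h3⟩

end Vale.Agent.P327
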