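import Vale.Agent.P327.FinOracle
import Vale.Agent.P327.Baire

/-!
Finite strings as finite oracles: relation with total oracles.
-/

namespace Vale.Agent.P327

open OCode

/-- The sequence extending a list by `false`. -/
def extd (ρ : List Bool) : ℕ → Bool := fun i => (ρ[i]?).getD false

/-- `W` extends the list `ρ`. -/
def Ext (ρ : List Bool) (W : ℕ → Bool) : Prop := ∀ i b, ρ[i]? = some b → W i = b

/-- The list of the first `n` values of `Z`. -/
def seg (Z : ℕ → Bool) (n : ℕ) : List Bool := (List.range n).map Z

@[simp] theorem seg_length (Z : ℕ → Bool) (n : ℕ) : (seg Z n).length = n := by simp [seg]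

theorem seg_getElem? (Z : ℕ → Bool) (n i : ℕ) :
    (seg Z n)[i]? = if i < n then some (Z i) else none := by
  unfold seg
  split_ifs with h
  · rw [List.getElem?_map, List.getElem?_range h]
    rfl
  · rw [List.getElem?_eq_none (by simpa using h)]

theorem ext_extd (ρ : List Bool) : Ext ρ (extd ρ) := by
  intro i b h
  simp [extd, h]

theorem fo_le {ρ : List Bool} {W : ℕ → Bool} (h : Ext ρ W) : PLE (fo ρ) (chi W) := by
  intro n v hv
  unfold fo at hv
  rw [Part.mem_ofOption, Option.mem_def, Option.map_eq_some_iff] at hv
  obtain ⟨b, hb, rfl⟩ := hv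
  unfold chi
  rw [h n b hb]
  exact Part.mem_some _

theorem Ext.of_append {ρ τ : List Bool} {W : ℕ → Bool} (h : Ext (ρ ++ τ) W) : Ext ρ W := by
  intro i b hb
  apply h i b
  have hi : i < ρ.length := by
    by_contra hcon
    rw [List.getElem?_eq_none (by omega)] at hb
    exact absurd hb (by simp)
  rw [List.getElem?_append_left hi]
  exact hb

theorem ext_seg_iff {Z W : ℕ → Bool} {n : ℕ} : Ext (seg Z n) W ↔ Agree n Z W := by
  constructor
  · intro h i hi
    apply h i (Z i)
    rw [seg_getElem?, if_pos hi]
  · intro h i b hb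
    rw [seg_getElem?] at hb
    split_ifs at hb with hi
    · rw [h i hi]
      exact Option.some.inj hb

theorem seg_add (Z : ℕ → Bool) (a b : ℕ) :
    seg Z (a + b) = seg Z a ++ (List.range b).map (fun i => Z (a + i)) := by
  unfold seg
  rw [List.range_add, List.map_append, List.map_map]
  rfl

/-- If a program converges on a total oracle extending `ρ`, it converges on a finite extension. -/
theorem exists_fin_ext {c : OCode} {ρ : List Bool} {W : ℕ → Bool} (hW : Ext ρ W) {m v : ℕ}
    (hv : v ∈ eval (chi W) c m) : ∃ τ, v ∈ eval (fo (ρ ++ τ)) c m := by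
  obtain ⟨L, hL⟩ := OCode.use _ _ _ _ hv
  refine ⟨(List.range L).map (fun i => W (ρ.length + i)), OCode.mono ?_ _ _ _ hL⟩
  intro n w hw
  unfold restr at hw
  split_ifs at hw with hn
  · unfold chi at hw
    rw [Part.mem_some_iff] at hw
    subst hw
    unfold fo
    rw [Part.mem_ofOption, Option.mem_def, Option.map_eq_some_iff]
    refine ⟨W n, ?_, rfl⟩
    by_cases hnρ : n < ρ.length
    · rw [List.getElem?_append_left hnρ, List.getElem?_eq_getElem hnρ]
      rw [hW n ρ[n] (List.getElem?_eq_getElem hnρ)]
    · have h1 : n - ρ.length < L := by omega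
      rw [List.getElem?_append_right (by omega), List.getElem?_map, List.getElem?_range h1]
      simp only [Option.map_some]
      congr 2
      omega
  · exact absurd hw (Part.notMem_none _)

end Vale.Agent.P327
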