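import Vale.Agent.P327.Table
import Vale.Agent.P327.Strings

/-!
From a program that is good on one cylinder to a program that is good everywhere, for maps that are
uniformly continuous and uniformly invariant under finite differences.
-/

namespace Vale.Agent.P327

open OCode

theorem computable_finite_table (l : List ℕ) : Computable (fun m : ℕ => (l[m]?).getD 0) :=
  (Primrec.option_getD.comp (Primrec.list_getElem?.comp (Primrec.const l) Primrec.id)
    (Primrec.const 0)).to_comp

theorem globalize {H : (ℕ → Bool) → (ℕ → Bool)} (hc : UC H) (he : UE H)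
    {c : OCode} {W0 : ℕ → Bool} {L0 : ℕ}
    (h1 : ∀ W, Agree L0 W0 W → ∀ m v, v ∈ eval (chi W) c m → v = (H W m).toNat)
    (h2 : ∀ W, Agree L0 W0 W → ∀ L m, ∃ W', Agree L W W' ∧ (eval (chi W') c m).Dom) :
    ∃ c' : OCode, (∀ W m v, v ∈ eval (chi W) c' m → v = (H W m).toNat) ∧
      (∀ W L m, ∃ W', Agree L W W' ∧ (eval (chi W') c' m).Dom) := by
  obtain ⟨b0, hb0⟩ := he L0
  -- the modified oracle
  have hselmod : Computable (fun z : ℕ => if (Nat.unpair z).1 < L0 then
      (((seg W0 L0).map Bool.toNat)[(Nat.unpair z).1]?).getD 0 else (Nat.unpair z).2) := by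
    apply Primrec.to_comp
    refine Primrec.ite (Primrec.nat_lt.comp (Primrec.fst.comp Primrec.unpair) (Primrec.const L0))
      ?_ (Primrec.snd.comp Primrec.unpair)
    exact Primrec.option_getD.comp (Primrec.list_getElem?.comp (Primrec.const _)
      (Primrec.fst.comp Primrec.unpair)) (Primrec.const 0)
  obtain ⟨csm, hcsm⟩ := exists_code_of_computable hselmod
  obtain ⟨cid, hcid⟩ := exists_code_of_computable (Computable.id (α := ℕ))
  let Ws : (ℕ → Bool) → (ℕ → Bool) := fun W j => if j < L0 then W0 j else W j
  have hmod : ∀ W, eval (chi W) (comp csm (pair cid oracle)) = chi (Ws W) := by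
    intro W
    funext j
    have e1 : eval (chi W) oracle j = Part.some (W j).toNat := rfl
    rw [eval_comp_some (eval_pair_some (hcid _ _) e1), hcsm]
    simp only [Nat.unpair_pair, id]
    show _ = Part.some (Ws W j).toNat
    congr 1
    by_cases hj : j < L0
    · rw [if_pos hj, List.getElem?_map, seg_getElem?, if_pos hj]
      simp [Ws, hj]
    · simp [Ws, hj]
  have hmax : Computable (fun m : ℕ => max m b0) :=
    (Primrec.nat_max.comp Primrec.id (Primrec.const b0)).to_comp
  obtain ⟨cmax, hcmax⟩ := exists_code_of_computable hmax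
  -- the table for the first `b0` outputs
  obtain ⟨N, hN⟩ := hc.upto b0
  obtain ⟨ct, hct⟩ := exists_table_code N (fun W m => if m < b0 then (H W m).toNat else 0)
    (fun W W' h => by
      funext m
      by_cases hm : m < b0
      · simp only [hm, if_true, hN W W' h m hm]
      · simp only [hm, if_false])
    (fun W => (computable_finite_table ((List.range b0).map fun m => (H W m).toNat)).of_eq
      fun m => by
        by_cases hm : m < b0
        · simp [hm]
        · simp [hm])
  have hsel3 : Computable (fun z : ℕ => if (Nat.unpair z).1 < b0 then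
      (Nat.unpair (Nat.unpair z).2).2 else (Nat.unpair (Nat.unpair z).2).1) := by
    apply Primrec.to_comp
    refine Primrec.ite (Primrec.nat_lt.comp (Primrec.fst.comp Primrec.unpair) (Primrec.const b0))
      ?_ ?_
    · exact Primrec.snd.comp (Primrec.unpair.comp (Primrec.snd.comp Primrec.unpair))
    · exact Primrec.fst.comp (Primrec.unpair.comp (Primrec.snd.comp Primrec.unpair))
  obtain ⟨cs3, hcs3⟩ := exists_code_of_computable hsel3
  let c2 : OCode := comp (subst (comp csm (pair cid oracle)) c) cmax
  have hc2 : ∀ W m, eval (chi W) c2 m = eval (chi (Ws W)) c (max m b0) := by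
    intro W m
    show eval (chi W) (comp _ cmax) m = _
    rw [eval_comp_some (hcmax _ _), eval_subst, hmod]
  have hmem : ∀ W m v, v ∈ eval (chi W) (comp cs3 (pair cid (pair c2 ct))) m ↔
      ∃ u ∈ eval (chi (Ws W)) c (max m b0), v = if m < b0 then (H W m).toNat else u := by
    intro W m v
    rw [mem_eval_comp]
    constructor
    · rintro ⟨x, hx, hv⟩
      rw [mem_eval_pair] at hx
      obtain ⟨x1, hx1, x2, hx2, rfl⟩ := hx
      rw [mem_eval_pair] at hx2
      obtain ⟨u, hu, t, ht, rfl⟩ := hx2
      rw [hcid, Part.mem_some_iff] at hx1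
      rw [hct, Part.mem_some_iff] at ht
      rw [hc2] at hu
      rw [hcs3, Part.mem_some_iff] at hv
      obtain rfl : m = x1 := hx1.symm
      subst ht
      refine ⟨u, hu, ?_⟩
      rw [hv]
      simp only [Nat.unpair_pair]
      by_cases hm : m < b0
      · simp [hm]
      · simp [hm]
    · rintro ⟨u, hu, rfl⟩
      refine ⟨Nat.pair m (Nat.pair u (if m < b0 then (H W m).toNat else 0)), ?_, ?_⟩
      · rw [mem_eval_pair]
        refine ⟨m, by rw [hcid]; exact Part.mem_some _, _, ?_, rfl⟩
        rw [mem_eval_pair]
        exact ⟨u, by rw [hc2]; exact hu, _, by rw [hct]; exact Part.mem_some _, rfl⟩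
      · rw [hcs3, Part.mem_some_iff]
        simp only [Nat.unpair_pair]
        by_cases hm : m < b0
        · simp [hm]
        · simp [hm]
  have hWs : ∀ W, Agree L0 W0 (Ws W) := by
    intro W i hi
    simp [Ws, hi]
  refine ⟨comp cs3 (pair cid (pair c2 ct)), ?_, ?_⟩
  · intro W m v hv
    obtain ⟨u, hu, rfl⟩ := (hmem W m v).1 hv
    by_cases hm : m < b0
    · simp [hm]
    · have hm' : max m b0 = m := max_eq_left (by omega)
      rw [hm'] at hu
      simp only [hm, if_false]
      rw [h1 _ (hWs W) m u hu]
      congr 1
      apply hb0 W (Ws W) _ m (by omega)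
      intro i hi
      have : ¬ i < L0 := by omega
      simp [Ws, this]
  · intro W L m
    obtain ⟨W'', hW'', hd⟩ := h2 _ (hWs W) (max L L0) (max m b0)
    refine ⟨fun j => if j < L0 then W j else W'' j, ?_, ?_⟩
    · intro i hi
      by_cases hi0 : i < L0
      · simp [hi0]
      · simp only [hi0, if_false]
        rw [hW'' i (lt_of_lt_of_le hi (le_max_left _ _))]
        simp [Ws, hi0]
    · have e : Ws (fun j => if j < L0 then W j else W'' j) = W'' := by
        funext j
        by_cases hj : j < L0
        · simp only [Ws, hj, if_true]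
          rw [hW'' j (lt_of_lt_of_le hj (le_max_right _ _))]
          simp [Ws, hj]
        · simp [Ws, hj]
      apply Part.dom_iff_mem.2
      have hu : (eval (chi W'') c (max m b0)).get hd ∈
          eval (chi (Ws (fun j => if j < L0 then W j else W'' j))) c (max m b0) := by
        rw [e]
        exact Part.get_mem hd
      exact ⟨_, (hmem _ m _).2 ⟨_, hu, rfl⟩⟩

end Vale.Agent.P327
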