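import Vale.Agent.P327.Main

/-!
Transfer of the rigidity theorem from boolean sequences to subsets of the natural numbers.
-/

namespace Vale.Agent.P327

open scoped symmDiff
open Classical in
/-- Boolean sequence of a set. -/
noncomputable def toB (A : Set ℕ) : ℕ → Bool := fun n => decide (n ∈ A)

/-- Set of a boolean sequence. -/
def toS (X : ℕ → Bool) : Set ℕ := {n | X n = true}

@[simp] theorem toS_toB (A : Set ℕ) : toS (toB A) = A := by
  ext n; simp [toS, toB]

@[simp] theorem toB_toS (X : ℕ → Bool) : toB (toS X) = X := by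
  funext n
  cases h : X n <;> simp [toS, toB, h]

theorem toB_apply_eq_true {A : Set ℕ} {n : ℕ} : toB A n = true ↔ n ∈ A := by simp [toB]

theorem toB_symmDiff (A B : Set ℕ) : toB (A ∆ B) = bxor (toB A) (toB B) := by
  funext n
  by_cases hA : n ∈ A <;> by_cases hB : n ∈ B <;> simp [toB, bxor, Set.mem_symmDiff, hA, hB]

theorem toS_bxor (X Y : ℕ → Bool) : toS (bxor X Y) = toS X ∆ toS Y := by
  have := toB_symmDiff (toS X) (toS Y)
  rw [toB_toS, toB_toS] at this
  rw [← this, toS_toB]

/-- The oracle of a set. -/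
noncomputable def setChi (A : Set ℕ) : ℕ →. ℕ := fun n => Part.some (A.indicator (fun _ => 1) n)

theorem setChi_eq (A : Set ℕ) : setChi A = chi (toB A) := by
  funext n
  by_cases hA : n ∈ A <;> simp [setChi, chi, toB, hA]

theorem rowEval_eq_true_iff (l : List ℕ) (W : ℕ → Bool) :
    rowEval l W = true ↔ Odd (l.countP W) := by
  induction l with
  | nil => simp
  | cons k l ih =>
    rw [rowEval_cons, List.countP_cons]
    cases hW : W k with
    | false => simpa using ih
    | true =>
      simp only [Bool.true_xor, Bool.not_eq_true', if_true, Nat.odd_add_one]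
      rw [← ih]
      simp

theorem continuous_of_isLin {H : (ℕ → Bool) → (ℕ → Bool)} (h : IsLin H) : Continuous H := by
  refine continuous_pi fun m => ?_
  rw [continuous_discrete_rng]
  intro b
  apply isOpen_of_agree
  intro W hW
  obtain ⟨N, hN⟩ := h.congr_of_agree m
  refine ⟨N, fun W' hW' => ?_⟩
  simp only [Set.mem_preimage, Set.mem_singleton_iff] at hW ⊢
  rw [hN W W' hW', hW]

theorem set_rigid (F : Set ℕ ≃ Set ℕ) (hadd : ∀ A B, F (A ∆ B) = F A ∆ F B)
    (hcont : ∀ m, ∃ N, ∀ A B : Set ℕ, (∀ n < N, n ∈ A ↔ n ∈ B) → (m ∈ F A ↔ m ∈ F B))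
    (hiff : ∀ A B, Nat.RecursiveIn {setChi B} (setChi A) ↔
      Nat.RecursiveIn {setChi (F B)} (setChi (F A))) :
    (∃ T : ℕ → List ℕ, Computable T ∧ ∀ A n, F A n ↔ Odd ((T n).countP (toB A))) ∧
    (∃ T : ℕ → List ℕ, Computable T ∧ ∀ A n, F.symm A n ↔ Odd ((T n).countP (toB A))) ∧
    ∀ A, Nat.RecursiveIn {setChi A} (setChi (F A)) ∧ Nat.RecursiveIn {setChi (F A)} (setChi A) := by
  have hF0 : F ∅ = ∅ := by
    have := hadd ∅ ∅
    simpa using this
  have hG0 : F.symm ∅ = ∅ := by
    rw [Equiv.symm_apply_eq, hF0]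
  have haddG : ∀ A B, F.symm (A ∆ B) = F.symm A ∆ F.symm B := by
    intro A B
    rw [Equiv.symm_apply_eq, hadd, Equiv.apply_symm_apply, Equiv.apply_symm_apply]
  have hzero : toS zeroSeq = ∅ := by
    ext n; simp [toS, zeroSeq]
  have hlinF : IsLin (fun X => toB (F (toS X))) := by
    refine ⟨fun X Y => by rw [toS_bxor, hadd, toB_symmDiff], fun m => ?_⟩
    obtain ⟨N, hN⟩ := hcont m
    refine ⟨N, fun W hW => ?_⟩
    have h1 := hN (toS W) ∅ (fun n hn => by simp [toS, hW n hn])
    rw [hF0] at h1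
    have h2 : ¬ (toB (F (toS W)) m = true) := by
      rw [toB_apply_eq_true, h1]
      exact Set.notMem_empty m
    simpa using h2
  let e : (ℕ → Bool) ≃ (ℕ → Bool) :=
    { toFun := fun X => toB (F (toS X))
      invFun := fun X => toB (F.symm (toS X))
      left_inv := fun X => by simp
      right_inv := fun X => by simp }
  have hce : Continuous e := continuous_of_isLin hlinF
  have hce' : Continuous e.symm := hce.continuous_symm_of_equiv_compact_to_t2
  have hlinG : IsLin (fun X => toB (F.symm (toS X))) := by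
    refine ⟨fun X Y => by rw [toS_bxor, haddG, toB_symmDiff], fun m => ?_⟩
    have hopen : IsOpen ((fun W => e.symm W m) ⁻¹' {false}) :=
      (isOpen_discrete _).preimage ((continuous_apply m).comp hce')
    have hmem : zeroSeq ∈ (fun W => e.symm W m) ⁻¹' {false} := by
      show toB (F.symm (toS zeroSeq)) m = false
      rw [hzero, hG0]
      simp [toB]
    obtain ⟨L, hL⟩ := exists_agree_of_isOpen hopen hmem
    exact ⟨L, fun W hW => hL W fun i hi => hW i hi⟩
  have key := linear_rigid hlinF hlinG (fun W => by simp) (fun W => by simp) (fun A B => by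
    have := hiff (toS A) (toS B)
    rw [setChi_eq, setChi_eq, setChi_eq, setChi_eq, toB_toS, toB_toS] at this
    exact this)
  obtain ⟨⟨T1, hT1, h1⟩, ⟨T2, hT2, h2⟩⟩ := key
  refine ⟨⟨T1, hT1, fun A n => ?_⟩, ⟨T2, hT2, fun A n => ?_⟩, fun A => ⟨?_, ?_⟩⟩
  · rw [← rowEval_eq_true_iff, ← h1 (toB A) n, toS_toB, toB_apply_eq_true]
    rfl
  · rw [← rowEval_eq_true_iff, ← h2 (toB A) n, toS_toB, toB_apply_eq_true]
    rfl
  · have := red_of_rows hT1 h1 (toB A)
    rw [toS_toB] at this
    rw [setChi_eq, setChi_eq]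
    exact this
  · have := red_of_rows hT2 h2 (toB (F A))
    rw [toS_toB, Equiv.symm_apply_apply] at this
    rw [setChi_eq, setChi_eq]
    exact this

end Vale.Agent.P327
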