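import Vale.Agent.P327.Generic
import Vale.Agent.P327.Glue

/-!
Transfer of the rigidity theorem for homeomorphisms that are uniformly invariant under finite
differences to subsets of the natural numbers.
-/

namespace Vale.Agent.P327

theorem uc_of_continuous {K : (ℕ → Bool) → (ℕ → Bool)} (h : Continuous K) : UC K := by
  intro m
  have hloc : ∀ W, ∃ L, ∀ W', Agree L W W' → K W' m = K W m := by
    intro W
    have hopen : IsOpen ((fun V => K V m) ⁻¹' {K W m}) :=
      (isOpen_discrete _).preimage ((continuous_apply m).comp h)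
    exact exists_agree_of_isOpen hopen rfl
  choose L hL using hloc
  have hcover : (Set.univ : Set (ℕ → Bool)) ⊆ ⋃ W, {W' | Agree (L W) W W'} := by
    intro W _
    exact Set.mem_iUnion.2 ⟨W, Agree.refl _ _⟩
  obtain ⟨t, ht⟩ := isCompact_univ.elim_finite_subcover (fun W => {W' | Agree (L W) W W'})
    (fun W => isOpen_of_agree fun W' hW' => ⟨L W, fun W'' hW'' => hW'.trans hW''⟩) hcover
  refine ⟨t.sup L, fun W W' hW' => ?_⟩
  have hW := ht (Set.mem_univ W)
  simp only [Set.mem_iUnion] at hW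
  obtain ⟨V, hV, hVW⟩ := hW
  have hVW' : Agree (L V) V W' := Agree.trans hVW (hW'.mono (Finset.le_sup hV))
  rw [hL V W' hVW', hL V W hVW]

theorem set_ue_rigid (F : Set ℕ ≃ Set ℕ)
    (hcont : ∀ m, ∃ N, ∀ A B : Set ℕ, (∀ n < N, n ∈ A ↔ n ∈ B) → (m ∈ F A ↔ m ∈ F B))
    (hE : ∀ a, ∃ b, ∀ A B : Set ℕ, (∀ n, a ≤ n → (n ∈ A ↔ n ∈ B)) →
      ∀ n, b ≤ n → (n ∈ F A ↔ n ∈ F B))
    (hE' : ∀ a, ∃ b, ∀ A B : Set ℕ, (∀ n, a ≤ n → (n ∈ A ↔ n ∈ B)) →
      ∀ n, b ≤ n → (n ∈ F.symm A ↔ n ∈ F.symm B))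
    (hiff : ∀ A B, Nat.RecursiveIn {setChi B} (setChi A) ↔
      Nat.RecursiveIn {setChi (F B)} (setChi (F A))) (A : Set ℕ) :
    Nat.RecursiveIn {setChi A} (setChi (F A)) ∧ Nat.RecursiveIn {setChi (F A)} (setChi A) := by
  have hmem : ∀ (X : ℕ → Bool) (n : ℕ), n ∈ toS X ↔ X n = true := fun X n => Iff.rfl
  have hbool : ∀ (A B : Set ℕ) (n : ℕ), (n ∈ A ↔ n ∈ B) → toB A n = toB B n := by
    intro A B n h
    by_cases hA : n ∈ A
    · have hB := h.1 hA
      simp [toB, hA, hB]
    · have hB : n ∉ B := fun hB => hA (h.2 hB)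
      simp [toB, hA, hB]
  have hcF : UC (fun X => toB (F (toS X))) := by
    intro m
    obtain ⟨N, hN⟩ := hcont m
    refine ⟨N, fun W W' hW' => hbool _ _ _ (hN _ _ fun n hn => ?_)⟩
    rw [hmem, hmem, hW' n hn]
  let e : (ℕ → Bool) ≃ (ℕ → Bool) :=
    { toFun := fun X => toB (F (toS X))
      invFun := fun X => toB (F.symm (toS X))
      left_inv := fun X => by simp
      right_inv := fun X => by simp }
  have hce : Continuous e := hcF.continuous
  have hce' : Continuous e.symm := hce.continuous_symm_of_equiv_compact_to_t2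
  have hcG : UC (fun X => toB (F.symm (toS X))) := uc_of_continuous hce'
  have heF : UE (fun X => toB (F (toS X))) := by
    intro a
    obtain ⟨b, hb⟩ := hE a
    refine ⟨b, fun W W' hW' i hi => hbool _ _ _ (hb _ _ (fun n hn => ?_) i hi)⟩
    rw [hmem, hmem, hW' n hn]
  have heG : UE (fun X => toB (F.symm (toS X))) := by
    intro a
    obtain ⟨b, hb⟩ := hE' a
    refine ⟨b, fun W W' hW' i hi => hbool _ _ _ (hb _ _ (fun n hn => ?_) i hi)⟩
    rw [hmem, hmem, hW' n hn]
  have key := ue_rigid (F := fun X => toB (F (toS X))) (G := fun X => toB (F.symm (toS X)))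
    (fun W => by simp) (fun W => by simp) hcF hcG heF heG (fun A B => by
      have := hiff (toS A) (toS B)
      rw [setChi_eq, setChi_eq, setChi_eq, setChi_eq, toB_toS, toB_toS] at this
      exact this) (toB A)
  rw [toS_toB] at key
  rw [setChi_eq, setChi_eq]
  exact key

end Vale.Agent.P327
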