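import Vale.Agent.P327.RelSearch
import Vale.Agent.P327.Search
import Vale.Agent.P327.Baire2

/-!
Turing reducibility of boolean sequences, joins, and a relativised category lemma.
-/

namespace Vale.Agent.P327

open OCode

/-- Turing reducibility of boolean sequences. -/
def TR (X Y : ℕ → Bool) : Prop := Nat.RecursiveIn {chi Y} (chi X)

theorem TR.refl (X : ℕ → Bool) : TR X X := Nat.RecursiveIn.oracle _ rfl

theorem TR.trans {X Y Z : ℕ → Bool} (h1 : TR X Y) (h2 : TR Y Z) : TR X Z :=
  Nat.RecursiveIn.subst h1 fun g hg => by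
    rw [Set.mem_singleton_iff] at hg
    rw [hg]
    exact h2

theorem TR.iff_totIn {X Y : ℕ → Bool} : TR X Y ↔ TotIn (chi Y) (fun n => (X n).toNat) := Iff.rfl

/-- The join of two sequences. -/
def bjoin (X Y : ℕ → Bool) : ℕ → Bool := fun n => if n % 2 = 0 then X (n / 2) else Y (n / 2)

theorem bjoin_even (X Y : ℕ → Bool) (n : ℕ) : bjoin X Y (2 * n) = X n := by
  simp [bjoin]

theorem bjoin_odd (X Y : ℕ → Bool) (n : ℕ) : bjoin X Y (2 * n + 1) = Y n := by
  have h1 : (2 * n + 1) % 2 = 1 := by omega
  have h2 : (2 * n + 1) / 2 = n := by omega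
  simp [bjoin, h1, h2]

theorem computable_double : Computable (fun n : ℕ => 2 * n) :=
  (Primrec.nat_mul.comp (Primrec.const 2) Primrec.id).to_comp

theorem computable_double_succ : Computable (fun n : ℕ => 2 * n + 1) :=
  (Primrec.succ.comp (Primrec.nat_mul.comp (Primrec.const 2) Primrec.id)).to_comp

theorem TR.left_join (X Y : ℕ → Bool) : TR X (bjoin X Y) :=
  ((TotIn.oracle (bjoin X Y)).comp (TotIn.of_computable computable_double)).of_eq fun n => by
    rw [bjoin_even]

theorem TR.right_join (X Y : ℕ → Bool) : TR Y (bjoin X Y) :=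
  ((TotIn.oracle (bjoin X Y)).comp (TotIn.of_computable computable_double_succ)).of_eq fun n => by
    rw [bjoin_odd]

theorem TR.join_le {X Y Z : ℕ → Bool} (h1 : TR X Z) (h2 : TR Y Z) : TR (bjoin X Y) Z := by
  have hsel : Computable (fun z : ℕ => if (Nat.unpair z).1 % 2 = 0 then
      (Nat.unpair (Nat.unpair z).2).1 else (Nat.unpair (Nat.unpair z).2).2) := by
    apply Primrec.to_comp
    refine Primrec.ite ((Primrec.eq (α := ℕ)).comp (Primrec.nat_mod.comp
      (Primrec.fst.comp Primrec.unpair) (Primrec.const 2)) (Primrec.const 0)) ?_ ?_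
    · exact Primrec.fst.comp (Primrec.unpair.comp (Primrec.snd.comp Primrec.unpair))
    · exact Primrec.snd.comp (Primrec.unpair.comp (Primrec.snd.comp Primrec.unpair))
  have hhalf : Computable (fun n : ℕ => n / 2) :=
    (Primrec.nat_div.comp Primrec.id (Primrec.const 2)).to_comp
  have := (TotIn.of_computable (g := chi Z) hsel).comp ((TotIn.of_computable Computable.id).pair
    ((TotIn.comp h1 (TotIn.of_computable hhalf)).pair (TotIn.comp h2 (TotIn.of_computable hhalf))))
  refine this.of_eq fun n => ?_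
  simp only [Nat.unpair_pair, id, bjoin]
  split_ifs <;> rfl

theorem TR.of_join_bxor (G A : ℕ → Bool) : TR A (bjoin G (bxor G A)) := by
  have haddmod : Computable (fun z : ℕ => ((Nat.unpair z).1 + (Nat.unpair z).2) % 2) := by
    apply Primrec.to_comp
    exact Primrec.nat_mod.comp (Primrec.nat_add.comp (Primrec.fst.comp Primrec.unpair)
      (Primrec.snd.comp Primrec.unpair)) (Primrec.const 2)
  have := (TotIn.of_computable (g := chi (bjoin G (bxor G A))) haddmod).comp
    (((TotIn.oracle _).comp (TotIn.of_computable computable_double)).pair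
      ((TotIn.oracle _).comp (TotIn.of_computable computable_double_succ)))
  refine this.of_eq fun n => ?_
  simp only [Nat.unpair_pair, bjoin_even, bjoin_odd, bxor]
  cases G n <;> cases A n <;> rfl

theorem extd_eq_of_ext {ρ : List Bool} {W : ℕ → Bool} (h : Ext ρ W) {i : ℕ} (hi : i < ρ.length) :
    extd ρ i = W i := by
  have h1 : ρ[i]? = some ρ[i] := List.getElem?_eq_getElem hi
  rw [h i _ h1]
  simp [extd, h1]

/-- Finite approximation to `bjoin G (bxor G A)`. -/
def qs (τ α : List Bool) : List Bool :=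
  seg (bjoin (extd τ) (bxor (extd τ) (extd α))) (2 * min τ.length α.length)

theorem qs_ext {τ α : List Bool} {G A : ℕ → Bool} (hG : Ext τ G) (hA : Ext α A) :
    Ext (qs τ α) (bjoin G (bxor G A)) := by
  unfold qs
  rw [ext_seg_iff]
  intro i hi
  have h1 : i / 2 < τ.length := by omega
  have h2 : i / 2 < α.length := by omega
  simp only [bjoin, bxor, extd_eq_of_ext hG h1, extd_eq_of_ext hA h2]

theorem seg_congr {X Y : ℕ → Bool} {n : ℕ} (h : Agree n X Y) : seg Y n = seg X n := by
  unfold seg
  apply List.map_congr_left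
  intro i hi
  exact h i (List.mem_range.1 hi)

theorem qs_seg (G A : ℕ → Bool) (l : ℕ) :
    qs (seg G l) (seg A l) = seg (bjoin G (bxor G A)) (2 * l) := by
  have h := qs_ext (ext_seg_iff.2 (Agree.refl l G)) (ext_seg_iff.2 (Agree.refl l A))
  unfold qs at h ⊢
  simp only [seg_length, min_self] at h ⊢
  exact (seg_congr (ext_seg_iff.1 h)).symm

theorem restr_le_fo_seg (X : ℕ → Bool) {K n : ℕ} (h : K ≤ n) :
    PLE (restr (chi X) K) (fo (seg X n)) := by
  intro i v hv
  unfold restr at hv
  split_ifs at hv with hi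
  · unfold chi at hv
    rw [Part.mem_some_iff] at hv
    subst hv
    unfold fo
    rw [Part.mem_ofOption, Option.mem_def, Option.map_eq_some_iff]
    exact ⟨X i, by rw [seg_getElem?, if_pos (by omega)], rfl⟩
  · exact absurd hv (Part.notMem_none _)

theorem primrec_extd : Primrec₂ (fun (τ : List Bool) (k : ℕ) => extd τ k) :=
  Primrec.option_getD.comp (Primrec.list_getElem?.comp Primrec.fst Primrec.snd)
    (Primrec.const false)

theorem primrec_qs : Primrec₂ qs := by
  have hhalf : Primrec (fun p : (List Bool × List Bool) × ℕ => p.2 / 2) :=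
    Primrec.nat_div.comp Primrec.snd (Primrec.const 2)
  have h1 : Primrec (fun p : (List Bool × List Bool) × ℕ => extd p.1.1 (p.2 / 2)) :=
    primrec_extd.comp (Primrec.fst.comp Primrec.fst) hhalf
  have h2 : Primrec (fun p : (List Bool × List Bool) × ℕ => extd p.1.2 (p.2 / 2)) :=
    primrec_extd.comp (Primrec.snd.comp Primrec.fst) hhalf
  have hb : Primrec₂ (fun (p : List Bool × List Bool) (n : ℕ) =>
      bjoin (extd p.1) (bxor (extd p.1) (extd p.2)) n) := by
    refine Primrec.ite ((Primrec.eq (α := ℕ)).comp (Primrec.nat_mod.comp Primrec.snd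
      (Primrec.const 2)) (Primrec.const 0)) h1 ?_
    exact (Primrec.dom_bool₂ xor).comp h1 h2
  refine Primrec.list_map (Primrec.list_range.comp (Primrec.nat_mul.comp (Primrec.const 2)
    (Primrec.nat_min.comp (Primrec.list_length.comp Primrec.fst)
      (Primrec.list_length.comp Primrec.snd)))) hb

theorem pc_join_bxor (A : ℕ → Bool) : PC (fun G => bjoin G (bxor G A)) := by
  intro W m
  refine ⟨m / 2 + 1, fun W' hW' => ?_⟩
  simp only [bjoin, bxor, hW' (m / 2) (Nat.lt_succ_self _)]

attribute [local irreducible] qs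

/-- If `Z` is not reducible to `A`, then for comeagre many `G` it is not reducible to the join of
`G` and `G + A`. -/
theorem jp1 (A Z : ℕ → Bool) (h : ¬ TR Z A) :
    ∀ᶠ G in residual (ℕ → Bool), ¬ TR Z (bjoin G (bxor G A)) := by
  rcases baire_dichotomy (fun G => bjoin G (bxor G A)) (fun _ => Z) (pc_join_bxor A)
    (fun W m => ⟨0, fun _ _ => rfl⟩) with ⟨c, W0, L0, h1, h2⟩ | hres
  · exfalso
    apply h
    let E : (List Bool × ℕ) × List Bool →. ℕ :=
      fun q => eval (fo (qs (seg W0 L0 ++ q.2) q.1.1)) c q.1.2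
    have hq1 : Computable (fun q : (List Bool × ℕ) × List Bool => seg W0 L0 ++ q.2) :=
      Computable.list_append.comp (Computable.const _) Computable.snd
    have hq2 : Computable (fun q : (List Bool × ℕ) × List Bool => q.1.1) :=
      Computable.fst.comp Computable.fst
    have hq3 : Computable (fun q : (List Bool × ℕ) × List Bool => qs (seg W0 L0 ++ q.2) q.1.1) :=
      Computable₂.comp primrec_qs.to_comp hq1 hq2
    have hq4 : Computable (fun q : (List Bool × ℕ) × List Bool =>
        (qs (seg W0 L0 ++ q.2) q.1.1, q.1.2)) :=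
      Computable.pair hq3 (Computable.snd.comp Computable.fst)
    have hE : Partrec E := (partrec_eval_fo c).comp hq4
    obtain ⟨S, hS, hSspec, hSdom⟩ := exists_search hE
    have hP : Partrec (fun a => (S a).map Prod.snd) :=
      hS.map (Computable.snd.comp Computable.snd).to₂
    refine totIn_of_fin hP ?_ ?_
    · intro m
      have hW : Agree L0 W0 (extd (seg W0 L0)) := ext_seg_iff.1 (ext_extd _)
      obtain ⟨G', hG', hd⟩ := h2 _ hW L0 m
      obtain ⟨K, hK⟩ := OCode.use _ _ _ _ (Part.get_mem hd)
      refine ⟨L0 + K, ?_⟩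
      apply hSdom
      refine ⟨(List.range K).map (fun i => G' (L0 + i)),
        Part.dom_iff_mem.2 ⟨(eval (chi (bjoin G' (bxor G' A))) c m).get hd, ?_⟩⟩
      have e1 : seg W0 L0 ++ (List.range K).map (fun i => G' (L0 + i)) = seg G' (L0 + K) := by
        rw [seg_add, seg_congr (hW.trans hG')]
      show _ ∈ eval (fo (qs (seg W0 L0 ++ (List.range K).map (fun i => G' (L0 + i)))
        (seg A (L0 + K)))) c m
      rw [e1, qs_seg]
      exact OCode.mono (restr_le_fo_seg _ (by omega)) _ _ _ hK
    · intro m L v hv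
      rw [Part.mem_map_iff] at hv
      obtain ⟨⟨τ, v'⟩, hmem, rfl⟩ := hv
      have h3 := hSspec _ _ _ hmem
      have hext : Ext (qs (seg W0 L0 ++ τ) (seg A L))
          (bjoin (extd (seg W0 L0 ++ τ)) (bxor (extd (seg W0 L0 ++ τ)) A)) :=
        qs_ext (ext_extd _) (ext_seg_iff.2 (Agree.refl L A))
      exact h1 _ (ext_seg_iff.1 (ext_extd (seg W0 L0 ++ τ)).of_append) m _
        (OCode.mono (fo_le hext) _ _ _ h3)
  · filter_upwards [hres] with G hG hTR
    obtain ⟨c, hc⟩ := exists_code hTR
    exact hG c hc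

end Vale.Agent.P327
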