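import Mathlib

/-!
Oracle programs: a syntax for `Nat.RecursiveIn {g}`, with monotonicity and the use principle.
-/

namespace Vale.Agent.P327

open Part

/-- Syntax of oracle programs. -/
inductive OCode : Type
  | zero : OCode
  | succ : OCode
  | left : OCode
  | right : OCode
  | oracle : OCode
  | pair : OCode → OCode → OCode
  | comp : OCode → OCode → OCode
  | prec : OCode → OCode → OCode
  | rfind : OCode → OCode
  deriving Countable

namespace OCode

/-- Semantics of oracle programs relative to the oracle `g`. -/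
def eval (g : ℕ →. ℕ) : OCode → ℕ →. ℕ
  | zero => fun _ => 0
  | succ => Nat.succ
  | left => fun n => (Nat.unpair n).1
  | right => fun n => (Nat.unpair n).2
  | oracle => g
  | pair a b => fun n => Nat.pair <$> eval g a n <*> eval g b n
  | comp a b => fun n => eval g b n >>= eval g a
  | prec a b => fun p =>
      (Nat.unpair p).2.rec (eval g a (Nat.unpair p).1) fun y IH => do
        let i ← IH
        eval g b (Nat.pair (Nat.unpair p).1 (Nat.pair y i))
  | rfind a => fun x => Nat.rfind fun n => (fun m => m = 0) <$> eval g a (Nat.pair x n)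

theorem recursiveIn_eval (g : ℕ →. ℕ) (c : OCode) : Nat.RecursiveIn {g} (eval g c) := by
  induction c with
  | zero => exact Nat.RecursiveIn.zero
  | succ => exact Nat.RecursiveIn.succ
  | left => exact Nat.RecursiveIn.left
  | right => exact Nat.RecursiveIn.right
  | oracle => exact Nat.RecursiveIn.oracle g rfl
  | pair a b iha ihb => exact Nat.RecursiveIn.pair iha ihb
  | comp a b iha ihb => exact Nat.RecursiveIn.comp iha ihb
  | prec a b iha ihb => exact Nat.RecursiveIn.prec iha ihb
  | rfind a iha => exact Nat.RecursiveIn.rfind iha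

theorem exists_code {g f : ℕ →. ℕ} (h : Nat.RecursiveIn {g} f) : ∃ c, eval g c = f := by
  induction h with
  | zero => exact ⟨zero, rfl⟩
  | succ => exact ⟨succ, rfl⟩
  | left => exact ⟨left, rfl⟩
  | right => exact ⟨right, rfl⟩
  | oracle g' hg' =>
    rw [Set.mem_singleton_iff] at hg'
    exact ⟨oracle, hg'.symm⟩
  | pair _ _ iha ihb =>
    obtain ⟨a, rfl⟩ := iha
    obtain ⟨b, rfl⟩ := ihb
    exact ⟨pair a b, rfl⟩
  | comp _ _ iha ihb =>
    obtain ⟨a, rfl⟩ := iha
    obtain ⟨b, rfl⟩ := ihb
    exact ⟨comp a b, rfl⟩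
  | prec _ _ iha ihb =>
    obtain ⟨a, rfl⟩ := iha
    obtain ⟨b, rfl⟩ := ihb
    exact ⟨prec a b, rfl⟩
  | rfind _ iha =>
    obtain ⟨a, rfl⟩ := iha
    exact ⟨rfind a, rfl⟩

theorem recursiveIn_iff {g f : ℕ →. ℕ} : Nat.RecursiveIn {g} f ↔ ∃ c, eval g c = f :=
  ⟨exists_code, fun ⟨c, hc⟩ => hc ▸ recursiveIn_eval g c⟩

end OCode

end Vale.Agent.P327
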