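import Vale.Agent.P327.Strings
import Vale.Agent.P327.Comp

/-!
Unbounded search relative to an oracle, through finite initial segments of the oracle.
-/

namespace Vale.Agent.P327

open Nat.Partrec (Code)
open Encodable

theorem TotIn.of_eq {g : ℕ →. ℕ} {f h : ℕ → ℕ} (hf : TotIn g f) (H : ∀ n, f n = h n) :
    TotIn g h := by
  have : f = h := funext H
  rw [← this]
  exact hf

theorem TotIn.rfind {g : ℕ →. ℕ} {t : ℕ → ℕ} (ht : TotIn g t)
    (hex : ∀ x, ∃ k, t (Nat.pair x k) = 0) :
    ∃ k0 : ℕ → ℕ, TotIn g k0 ∧ ∀ x, t (Nat.pair x (k0 x)) = 0 := by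
  have hR := Nat.RecursiveIn.rfind ht
  have hdom : ∀ x, (Nat.rfind fun n => (fun m => decide (m = 0)) <$>
      (Part.some (t (Nat.pair x n)) : Part ℕ)).Dom := by
    intro x
    obtain ⟨k, hk⟩ := hex x
    refine Nat.rfind_dom.2 ⟨k, ?_, fun {m} _ => ?_⟩
    · simp [hk]
    · simp
  refine ⟨fun x => (Nat.rfind fun n => (fun m => decide (m = 0)) <$>
      (Part.some (t (Nat.pair x n)) : Part ℕ)).get (hdom x), ?_, ?_⟩
  · refine hR.of_eq fun x => ?_
    exact (Part.some_get (hdom x)).symm
  · intro x
    have := Nat.rfind_spec (Part.get_mem (hdom x))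
    simpa using this

theorem seg_succ (A : ℕ → Bool) (L : ℕ) : seg A (L + 1) = seg A L ++ [A L] := by
  simp [seg, List.range_succ]

theorem totIn_encode_seg (A : ℕ → Bool) : TotIn (chi A) (fun L => encode (seg A L)) := by
  have hsf : Computable (fun z : ℕ => encode (((decode (α := List Bool) (Nat.unpair z).1).getD [])
      ++ [decide ((Nat.unpair z).2 = 1)])) := by
    apply Primrec.to_comp
    refine Primrec.encode.comp (Primrec.list_append.comp ?_ ?_)
    · exact Primrec.option_getD.comp (Primrec.decode.comp (Primrec.fst.comp Primrec.unpair))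
        (Primrec.const [])
    · refine Primrec.list_cons.comp ?_ (Primrec.const [])
      exact (Primrec.eq (α := ℕ)).decide.comp (Primrec.snd.comp Primrec.unpair) (Primrec.const 1)
  have h1 : Computable (fun q : ℕ => (Nat.unpair (Nat.unpair q).2).2) :=
    Computable.snd.comp (Computable.unpair.comp (Computable.snd.comp Computable.unpair))
  have h2 : Computable (fun q : ℕ => (Nat.unpair (Nat.unpair q).2).1) :=
    Computable.fst.comp (Computable.unpair.comp (Computable.snd.comp Computable.unpair))
  have hstep := (TotIn.of_computable (g := chi A) hsf).comp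
    ((TotIn.of_computable h1).pair ((TotIn.oracle A).comp (TotIn.of_computable h2)))
  have hzero : TotIn (chi A) (fun _ => encode ([] : List Bool)) :=
    TotIn.of_computable (Computable.const _)
  have hprec := hzero.prec hstep
  have hin : Computable (fun L : ℕ => Nat.pair 0 L) :=
    Primrec₂.natPair.to_comp.comp (Computable.const 0) Computable.id
  refine (hprec.comp (TotIn.of_computable hin)).of_eq fun L => ?_
  simp only [Nat.unpair_pair]
  induction L with
  | zero => rfl
  | succ L ih =>
    simp only [ih, encodek, Option.getD_some, seg_succ]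
    cases A L <;> rfl

theorem totIn_of_fin {P : List Bool × ℕ →. ℕ} (hP : Partrec P) {A : ℕ → Bool} {f : ℕ → ℕ}
    (hc : ∀ x, ∃ L, (P (seg A L, x)).Dom) (hs : ∀ x L v, v ∈ P (seg A L, x) → v = f x) :
    TotIn (chi A) f := by
  obtain ⟨c, hcode⟩ := Code.exists_code.1 hP
  have hev : ∀ (σ : List Bool) (x w : ℕ), w ∈ c.eval (Nat.pair (encode σ) x) ↔ w ∈ P (σ, x) := by
    intro σ x w
    have : Nat.pair (encode σ) x = encode (σ, x) := by simp
    rw [this, hcode]
    simp
  have hcev : Computable (fun z : ℕ => encode (Code.evaln (Nat.unpair z).1 c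
      (Nat.pair (Nat.unpair (Nat.unpair z).2).1 (Nat.unpair (Nat.unpair z).2).2))) := by
    apply Primrec.to_comp
    refine Primrec.encode.comp (Code.primrec_evaln.comp (Primrec.pair (Primrec.pair
      (Primrec.fst.comp Primrec.unpair) (Primrec.const c)) ?_))
    exact Primrec₂.natPair.comp
      (Primrec.fst.comp (Primrec.unpair.comp (Primrec.snd.comp Primrec.unpair)))
      (Primrec.snd.comp (Primrec.unpair.comp (Primrec.snd.comp Primrec.unpair)))
  have h1 : Computable (fun p : ℕ => (Nat.unpair (Nat.unpair p).2).2) :=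
    Computable.snd.comp (Computable.unpair.comp (Computable.snd.comp Computable.unpair))
  have h2 : Computable (fun p : ℕ => (Nat.unpair (Nat.unpair p).2).1) :=
    Computable.fst.comp (Computable.unpair.comp (Computable.snd.comp Computable.unpair))
  have h3 : Computable (fun p : ℕ => (Nat.unpair p).1) := Computable.fst.comp Computable.unpair
  have hq := (TotIn.of_computable (g := chi A) hcev).comp ((TotIn.of_computable h1).pair
    (((totIn_encode_seg A).comp (TotIn.of_computable h2)).pair (TotIn.of_computable h3)))
  simp only [Nat.unpair_pair] at hq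
  have hz : Computable (fun n : ℕ => if n = 0 then 1 else 0) :=
    (Primrec.ite ((Primrec.eq (α := ℕ)).comp Primrec.id (Primrec.const 0)) (Primrec.const 1)
      (Primrec.const 0)).to_comp
  have ht := (TotIn.of_computable (g := chi A) hz).comp hq
  obtain ⟨k0, hk0, hk0spec⟩ := ht.rfind (by
    intro x
    obtain ⟨L, hL⟩ := hc x
    have hv := (hev (seg A L) x _).2 (Part.get_mem hL)
    obtain ⟨s, hs'⟩ := Code.evaln_complete.1 hv
    refine ⟨Nat.pair L s, ?_⟩
    simp only [Nat.unpair_pair]
    rw [Option.mem_def.1 hs']
    simp)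
  have hpred : Computable (fun n : ℕ => n - 1) :=
    (Primrec.nat_sub.comp Primrec.id (Primrec.const 1)).to_comp
  have hfin := (TotIn.of_computable (g := chi A) hpred).comp
    (hq.comp ((TotIn.of_computable Computable.id).pair hk0))
  refine hfin.of_eq fun x => ?_
  have hx := hk0spec x
  simp only [Nat.unpair_pair, id] at hx ⊢
  cases he : Code.evaln (Nat.unpair (k0 x)).2 c
      (Nat.pair (encode (seg A (Nat.unpair (k0 x)).1)) x) with
  | none => rw [he] at hx; simp at hx
  | some v =>
    have h5 := (hev _ _ _).1 (Code.evaln_sound (Option.mem_def.2 he))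
    rw [← hs x _ v h5]
    simp

end Vale.Agent.P327
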