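import Mathlib

/-!
Additive maps of Cantor space with finite dependence, and their rows.
-/

namespace Vale.Agent.P327

/-- Pointwise exclusive or. -/
def bxor (X Y : ℕ → Bool) : ℕ → Bool := fun n => xor (X n) (Y n)

/-- The indicator of a singleton. -/
def single (k : ℕ) : ℕ → Bool := fun n => decide (n = k)

/-- The zero sequence. -/
def zeroSeq : ℕ → Bool := fun _ => false

/-- Parity of the number of entries `k` of the list with `W k`. -/
def rowEval (l : List ℕ) (W : ℕ → Bool) : Bool := l.foldr (fun k acc => xor (W k) acc) false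

@[simp] theorem rowEval_nil (W : ℕ → Bool) : rowEval [] W = false := rfl

@[simp] theorem rowEval_cons (k : ℕ) (l : List ℕ) (W : ℕ → Bool) :
    rowEval (k :: l) W = xor (W k) (rowEval l W) := rfl

theorem rowEval_append (l1 l2 : List ℕ) (W : ℕ → Bool) :
    rowEval (l1 ++ l2) W = xor (rowEval l1 W) (rowEval l2 W) := by
  induction l1 with
  | nil => simp
  | cons k l ih => simp [ih]

theorem rowEval_flatMap (l : List ℕ) (r : ℕ → List ℕ) (W : ℕ → Bool) :
    rowEval (l.flatMap r) W = rowEval l (fun k => rowEval (r k) W) := by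
  induction l with
  | nil => simp
  | cons k l ih => simp [List.flatMap_cons, rowEval_append, ih]

/-- Additive maps with finite dependence. -/
structure IsLin (H : (ℕ → Bool) → (ℕ → Bool)) : Prop where
  add : ∀ X Y, H (bxor X Y) = bxor (H X) (H Y)
  fin : ∀ m, ∃ N, ∀ W, (∀ i < N, W i = false) → H W m = false

/-- Truncation of a sequence. -/
def trunc (W : ℕ → Bool) (N : ℕ) : ℕ → Bool := fun i => decide (i < N) && W i

namespace IsLin

variable {H : (ℕ → Bool) → (ℕ → Bool)}

theorem map_zero (h : IsLin H) : H zeroSeq = zeroSeq := by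
  have h1 := h.add zeroSeq zeroSeq
  have h2 : bxor zeroSeq zeroSeq = zeroSeq := by
    funext n; simp [bxor, zeroSeq]
  rw [h2] at h1
  funext n
  have h3 := congrFun h1 n
  simp only [bxor] at h3
  cases hb : H zeroSeq n with
  | false => rfl
  | true => rw [hb] at h3; simp at h3

theorem add_apply (h : IsLin H) (X Y : ℕ → Bool) (m : ℕ) :
    H (bxor X Y) m = xor (H X m) (H Y m) := by
  rw [h.add]; rfl

theorem trunc_succ (W : ℕ → Bool) (N : ℕ) :
    trunc W (N + 1) = bxor (trunc W N) (if W N then single N else zeroSeq) := by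
  funext i
  simp only [trunc, bxor]
  rcases lt_trichotomy i N with hi | rfl | hi
  · have h1 : i < N + 1 := by omega
    have h2 : i ≠ N := by omega
    cases hW : W N <;> simp [hi, h1, h2, single, zeroSeq]
  · cases hW : W i <;> simp [single, zeroSeq]
  · have h1 : ¬ i < N + 1 := by omega
    have h2 : ¬ i < N := by omega
    have h3 : i ≠ N := by omega
    cases hW : W N <;> simp [h1, h2, h3, single, zeroSeq]

theorem apply_trunc (h : IsLin H) (W : ℕ → Bool) (m N : ℕ) :
    H (trunc W N) m = rowEval ((List.range N).filter (fun k => H (single k) m)) W := by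
  induction N with
  | zero =>
    have : trunc W 0 = zeroSeq := by funext i; simp [trunc, zeroSeq]
    rw [this, h.map_zero]
    simp [zeroSeq]
  | succ N ih =>
    rw [trunc_succ, h.add_apply, ih, List.range_succ, List.filter_append, rowEval_append]
    congr 1
    cases hW : W N with
    | false =>
      simp only [Bool.false_eq_true, if_false, h.map_zero]
      cases hp : H (single N) m <;> simp [hp, hW, zeroSeq]
    | true =>
      simp only [if_true]
      cases hp : H (single N) m <;> simp [hp, hW]

theorem apply_eq_trunc (h : IsLin H) (W : ℕ → Bool) (m N : ℕ)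
    (hN : ∀ W, (∀ i < N, W i = false) → H W m = false) : H W m = H (trunc W N) m := by
  have h1 : W = bxor (trunc W N) (fun i => decide (N ≤ i) && W i) := by
    funext i
    simp only [bxor, trunc]
    by_cases hi : i < N
    · have : ¬ N ≤ i := by omega
      simp [hi, this]
    · have : N ≤ i := by omega
      simp [hi, this]
  have h2 : H (fun i => decide (N ≤ i) && W i) m = false := by
    apply hN
    intro i hi
    have : ¬ N ≤ i := by omega
    simp [this]
  conv_lhs => rw [h1]
  rw [h.add_apply, h2, Bool.xor_false]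

theorem filter_range_add (p : ℕ → Bool) (B d : ℕ) (hp : ∀ k, B ≤ k → p k = false) :
    (List.range (B + d)).filter p = (List.range B).filter p := by
  induction d with
  | zero => rfl
  | succ d ih =>
    rw [← Nat.add_assoc, List.range_succ, List.filter_append, ih]
    simp [hp (B + d) (Nat.le_add_right _ _)]

theorem apply_eq_rowEval (h : IsLin H) (m B : ℕ) (hB : ∀ k, B ≤ k → H (single k) m = false)
    (W : ℕ → Bool) :
    H W m = rowEval ((List.range B).filter (fun k => H (single k) m)) W := by
  obtain ⟨N, hN⟩ := h.fin m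
  have hN' : ∀ W, (∀ i < B + N, W i = false) → H W m = false :=
    fun W hW => hN W fun i hi => hW i (by omega)
  rw [h.apply_eq_trunc W m (B + N) hN', h.apply_trunc, filter_range_add _ B N hB]

theorem exists_row (h : IsLin H) (m : ℕ) : ∃ l : List ℕ, ∀ W, H W m = rowEval l W := by
  obtain ⟨N, hN⟩ := h.fin m
  refine ⟨_, h.apply_eq_rowEval m N fun k hk => hN _ fun i hi => ?_⟩
  have : i ≠ k := by omega
  simp [single, this]

theorem congr_of_agree (h : IsLin H) (m : ℕ) :
    ∃ N, ∀ W W' : ℕ → Bool, (∀ i < N, W' i = W i) → H W' m = H W m := by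
  obtain ⟨N, hN⟩ := h.fin m
  refine ⟨N, fun W W' hW => ?_⟩
  have h1 : W' = bxor W (bxor W W') := by
    funext i
    simp [bxor]
  have h2 : H (bxor W W') m = false := by
    apply hN
    intro i hi
    simp [bxor, hW i hi]
  conv_lhs => rw [h1]
  rw [h.add_apply, h2, Bool.xor_false]

theorem comp {H K : (ℕ → Bool) → (ℕ → Bool)} (h : IsLin H) (k : IsLin K) :
    IsLin (fun W => H (K W)) where
  add X Y := by rw [k.add, h.add]
  fin m := by
    obtain ⟨N, hN⟩ := h.fin m
    have key : ∀ j, ∃ M, ∀ W, (∀ i < M, W i = false) → ∀ i < j, K W i = false := by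
      intro j
      induction j with
      | zero => exact ⟨0, fun W _ i hi => absurd hi (Nat.not_lt_zero i)⟩
      | succ j ih =>
        obtain ⟨M1, h1⟩ := ih
        obtain ⟨M2, h2⟩ := k.fin j
        refine ⟨max M1 M2, fun W hW i hi => ?_⟩
        rcases Nat.lt_succ_iff_lt_or_eq.mp hi with hi | rfl
        · exact h1 W (fun i hi => hW i (lt_of_lt_of_le hi (le_max_left _ _))) i hi
        · exact h2 W (fun i hi => hW i (lt_of_lt_of_le hi (le_max_right _ _)))
    obtain ⟨M, hM⟩ := key N
    exact ⟨M, fun W hW => hN _ (hM W hW)⟩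

end IsLin

end Vale.Agent.P327
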