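import Vale.Agent.P327.FinOracle

/-!
Substitution of oracle programs, oracle-free programs, evaluation with parameters, iteration.
-/

namespace Vale.Agent.P327

namespace OCode

/-- Replace every oracle call of the second program by the program `d`. -/
def subst (d : OCode) : OCode → OCode
  | zero => zero
  | succ => succ
  | left => left
  | right => right
  | oracle => d
  | pair a b => pair (subst d a) (subst d b)
  | comp a b => comp (subst d a) (subst d b)
  | prec a b => prec (subst d a) (subst d b)
  | rfind a => rfind (subst d a)

theorem eval_subst (g : ℕ →. ℕ) (d c : OCode) : eval g (subst d c) = eval (eval g d) c := by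
  induction c with
  | zero => rfl
  | succ => rfl
  | left => rfl
  | right => rfl
  | oracle => rfl
  | pair a b iha ihb => simp only [subst, eval, iha, ihb]; rfl
  | comp a b iha ihb => simp only [subst, eval, iha, ihb]; rfl
  | prec a b iha ihb => simp only [subst, eval, iha, ihb]; rfl
  | rfind a iha => simp only [subst, eval, iha]; rfl

theorem exists_code_of_partrec {f : ℕ →. ℕ} (hf : Nat.Partrec f) : ∃ c, ∀ g, eval g c = f := by
  induction hf with
  | zero => exact ⟨zero, fun _ => rfl⟩
  | succ => exact ⟨succ, fun _ => rfl⟩
  | left => exact ⟨left, fun _ => rfl⟩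
  | right => exact ⟨right, fun _ => rfl⟩
  | pair _ _ iha ihb =>
    obtain ⟨a, ha⟩ := iha
    obtain ⟨b, hb⟩ := ihb
    exact ⟨pair a b, fun g => by simp only [eval, ha, hb]; rfl⟩
  | comp _ _ iha ihb =>
    obtain ⟨a, ha⟩ := iha
    obtain ⟨b, hb⟩ := ihb
    exact ⟨comp a b, fun g => by simp only [eval, ha, hb]; rfl⟩
  | prec _ _ iha ihb =>
    obtain ⟨a, ha⟩ := iha
    obtain ⟨b, hb⟩ := ihb
    exact ⟨prec a b, fun g => by simp only [eval, ha, hb]; rfl⟩
  | rfind _ iha =>
    obtain ⟨a, ha⟩ := iha
    exact ⟨rfind a, fun g => by simp only [eval, ha]; rfl⟩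

theorem exists_code_of_computable {f : ℕ → ℕ} (hf : Computable f) :
    ∃ c, ∀ g n, eval g c n = Part.some (f n) := by
  obtain ⟨c, hc⟩ := exists_code_of_partrec (Partrec.nat_iff.1 hf)
  exact ⟨c, fun g n => by rw [hc]; rfl⟩

theorem eval_pair_some {g : ℕ →. ℕ} {a b : OCode} {n x y : ℕ} (ha : eval g a n = Part.some x)
    (hb : eval g b n = Part.some y) : eval g (pair a b) n = Part.some (Nat.pair x y) := by
  show Nat.pair <$> eval g a n <*> eval g b n = _
  rw [ha, hb]
  simp [Seq.seq]

theorem eval_comp_some {g : ℕ →. ℕ} {a b : OCode} {n x : ℕ} (hb : eval g b n = Part.some x) :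
    eval g (comp a b) n = eval g a x := by
  show eval g b n >>= eval g a = _
  rw [hb]
  exact Part.bind_some _ _

theorem partrec_eval_param {α : Type*} [Primcodable α] {orc : α → ℕ →. ℕ} (horc : Partrec₂ orc)
    (c : OCode) : Partrec (fun p : α × ℕ => eval (orc p.1) c p.2) := by
  induction c with
  | zero => exact (Computable.const 0).partrec
  | succ => exact (Computable.succ.comp Computable.snd).partrec
  | left => exact (Computable.fst.comp (Computable.unpair.comp Computable.snd)).partrec
  | right => exact (Computable.snd.comp (Computable.unpair.comp Computable.snd)).partrec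
  | oracle => exact horc
  | pair a b iha ihb =>
    have : Partrec (fun p : α × ℕ =>
        (eval (orc p.1) a p.2).bind fun x => (eval (orc p.1) b p.2).map fun y => Nat.pair x y) := by
      refine Partrec.bind iha ?_
      refine Partrec.map (ihb.comp Computable.fst) ?_
      exact (Primrec₂.natPair.to_comp.comp (Computable.snd.comp Computable.fst) Computable.snd).to₂
    refine this.of_eq fun p => ?_
    apply Part.ext
    intro v
    rw [mem_eval_pair]
    simp only [Part.mem_bind_iff, Part.mem_map_iff]
    constructor
    · rintro ⟨x, hx, y, hy, rfl⟩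
      exact ⟨x, hx, y, hy, rfl⟩
    · rintro ⟨x, hx, y, hy, rfl⟩
      exact ⟨x, hx, y, hy, rfl⟩
  | comp a b iha ihb =>
    exact Partrec.bind ihb
      (iha.comp (Computable.pair (Computable.fst.comp Computable.fst) Computable.snd)).to₂
  | prec a b iha ihb =>
    have hc : Computable (fun r : (α × ℕ) × (ℕ × ℕ) =>
        (r.1.1, Nat.pair (Nat.unpair r.1.2).1 (Nat.pair r.2.1 r.2.2))) := by
      refine Computable.pair (Computable.fst.comp Computable.fst) ?_
      refine Primrec₂.natPair.to_comp.comp
        (Computable.fst.comp (Computable.unpair.comp (Computable.snd.comp Computable.fst))) ?_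
      exact Primrec₂.natPair.to_comp.comp (Computable.fst.comp Computable.snd)
        (Computable.snd.comp Computable.snd)
    have hh : Partrec₂ (fun (p : α × ℕ) (q : ℕ × ℕ) =>
          eval (orc p.1) b (Nat.pair (Nat.unpair p.2).1 (Nat.pair q.1 q.2))) :=
      ihb.comp hc
    have hg : Partrec (fun p : α × ℕ => eval (orc p.1) a (Nat.unpair p.2).1) :=
      iha.comp (Computable.pair Computable.fst
          (Computable.fst.comp (Computable.unpair.comp Computable.snd)))
    exact Partrec.nat_rec (Computable.snd.comp (Computable.unpair.comp Computable.snd)) hg hh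
  | rfind a iha =>
    have : Partrec (fun p : α × ℕ =>
        Nat.rfind fun n => (eval (orc p.1) a (Nat.pair p.2 n)).map fun m => decide (m = 0)) := by
      refine Partrec.rfind ?_
      refine Partrec.map (iha.comp (Computable.pair (Computable.fst.comp Computable.fst)
        (Primrec₂.natPair.to_comp.comp (Computable.snd.comp Computable.fst) Computable.snd))) ?_
      have : Primrec (fun m : ℕ => decide (m = 0)) :=
        (Primrec.eq (α := ℕ)).decide.comp Primrec.id (Primrec.const 0)
      exact (this.to_comp.comp Computable.snd).to₂
    exact this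

/-- Iterated substitution: the `n`-fold iterate of the functional given by `c`. -/
def iter (c : OCode) : ℕ → OCode
  | 0 => oracle
  | n + 1 => subst (iter c n) c

theorem eval_iter_zero (g : ℕ →. ℕ) (c : OCode) : eval g (iter c 0) = g := rfl

theorem eval_iter_succ (g : ℕ →. ℕ) (c : OCode) (n : ℕ) :
    eval g (iter c (n + 1)) = eval (eval g (iter c n)) c :=
  eval_subst g (iter c n) c

end OCode

open OCode
open Nat.Partrec (Code)

/-- Finite oracle given by the number coding a list of booleans. -/
def foN (s : ℕ) : ℕ →. ℕ := fo ((Encodable.decode (α := List Bool) s).getD [])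

theorem foN_encode (σ : List Bool) : foN (Encodable.encode σ) = fo σ := by
  simp [foN]

theorem partrec_foN : Partrec₂ foN := by
  have h1 : Computable (fun p : ℕ × ℕ =>
      ((Encodable.decode (α := List Bool) p.1).getD [], p.2)) :=
    Computable.pair (Computable.option_getD (Computable.decode.comp Computable.fst)
      (Computable.const [])) Computable.snd
  exact (partrec_eval_fo oracle).comp h1

theorem partrec_iter (c : OCode) :
    Partrec (fun x : ℕ × List Bool × ℕ => eval (fo x.2.1) (iter c x.1) x.2.2) := by
  let f : Code → ℕ →. ℕ := fun e x =>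
    cond (decide ((Nat.unpair x).1 = 0))
      (foN (Nat.unpair (Nat.unpair x).2).1 (Nat.unpair (Nat.unpair x).2).2)
      (eval (fun j => e.eval (Nat.pair ((Nat.unpair x).1 - 1)
        (Nat.pair (Nat.unpair (Nat.unpair x).2).1 j))) c (Nat.unpair (Nat.unpair x).2).2)
  have hs : Computable (fun p : Code × ℕ => (Nat.unpair (Nat.unpair p.2).2).1) :=
    Computable.fst.comp (Computable.unpair.comp (Computable.snd.comp
      (Computable.unpair.comp Computable.snd)))
  have hm : Computable (fun p : Code × ℕ => (Nat.unpair (Nat.unpair p.2).2).2) :=
    Computable.snd.comp (Computable.unpair.comp (Computable.snd.comp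
      (Computable.unpair.comp Computable.snd)))
  have hn : Computable (fun p : Code × ℕ => (Nat.unpair p.2).1) :=
    Computable.fst.comp (Computable.unpair.comp Computable.snd)
  have horc : Partrec₂ (fun (a : Code × ℕ × ℕ) (j : ℕ) =>
      a.1.eval (Nat.pair a.2.1 (Nat.pair a.2.2 j))) := by
    refine Code.eval_part.comp (Computable.fst.comp Computable.fst) ?_
    refine Primrec₂.natPair.to_comp.comp
      (Computable.fst.comp (Computable.snd.comp Computable.fst)) ?_
    exact Primrec₂.natPair.to_comp.comp
      (Computable.snd.comp (Computable.snd.comp Computable.fst)) Computable.snd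
  have hf : Partrec₂ f := by
    refine Partrec.cond ?_ (partrec_foN.comp hs hm) ?_
    · exact ((Primrec.eq (α := ℕ)).decide.comp Primrec.id (Primrec.const 0)).to_comp.comp hn
    · refine (partrec_eval_param horc c).comp (Computable.pair (Computable.pair Computable.fst
        (Computable.pair ?_ hs)) hm)
      exact (Primrec.nat_sub.comp Primrec.id (Primrec.const 1)).to_comp.comp hn
  obtain ⟨e, he⟩ := Code.fixed_point₂ hf
  have key : ∀ n s, (fun m => e.eval (Nat.pair n (Nat.pair s m))) = eval (foN s) (iter c n) := by
    intro n
    induction n with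
    | zero =>
      intro s
      funext m
      rw [he]
      simp [f, eval_iter_zero]
    | succ n ih =>
      intro s
      funext m
      rw [he, eval_iter_succ, ← ih s]
      simp [f]
  have h1 : Partrec (fun x : ℕ × List Bool × ℕ =>
      e.eval (Nat.pair x.1 (Nat.pair (Encodable.encode x.2.1) x.2.2))) := by
    refine Code.eval_part.comp (Computable.const e) ?_
    refine Primrec₂.natPair.to_comp.comp Computable.fst ?_
    exact Primrec₂.natPair.to_comp.comp
      (Computable.encode.comp (Computable.fst.comp Computable.snd))
      (Computable.snd.comp Computable.snd)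
  refine h1.of_eq fun x => ?_
  have := congrFun (key x.1 (Encodable.encode x.2.1)) x.2.2
  rw [foN_encode] at this
  exact this

end Vale.Agent.P327
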