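import Vale.Agent.P327.Subst
import Vale.Agent.P327.Baire2

/-!
Uniform continuity, tail invariance, and oracle programs for maps depending on finitely many bits.
-/

namespace Vale.Agent.P327

open OCode

/-- Uniform continuity in terms of agreement of initial segments. -/
def UC (F : (ℕ → Bool) → (ℕ → Bool)) : Prop :=
  ∀ m, ∃ N, ∀ W W', Agree N W W' → F W' m = F W m

/-- `W'` agrees with `W` from `a` on. -/
def TailAgree (a : ℕ) (W W' : ℕ → Bool) : Prop := ∀ i, a ≤ i → W' i = W i

/-- Uniform invariance under finite differences. -/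
def UE (F : (ℕ → Bool) → (ℕ → Bool)) : Prop :=
  ∀ a, ∃ b, ∀ W W', TailAgree a W W' → TailAgree b (F W) (F W')

theorem UC.upto {F : (ℕ → Bool) → (ℕ → Bool)} (hF : UC F) (K : ℕ) :
    ∃ N, ∀ W W', Agree N W W' → Agree K (F W) (F W') := by
  induction K with
  | zero => exact ⟨0, fun W W' _ i hi => absurd hi (Nat.not_lt_zero i)⟩
  | succ K ih =>
    obtain ⟨L1, h1⟩ := ih
    obtain ⟨L2, h2⟩ := hF K
    refine ⟨max L1 L2, fun W W' hW' i hi => ?_⟩
    rcases Nat.lt_succ_iff_lt_or_eq.mp hi with hi | rfl
    · exact h1 W W' (hW'.mono (le_max_left _ _)) i hi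
    · exact h2 W W' (hW'.mono (le_max_right _ _))

theorem UC.pc {F : (ℕ → Bool) → (ℕ → Bool)} (hF : UC F) : PC F := by
  intro W m
  obtain ⟨N, hN⟩ := hF m
  exact ⟨N, fun W' hW' => hN W W' hW'⟩

theorem UC.comp {F K : (ℕ → Bool) → (ℕ → Bool)} (hF : UC F) (hK : UC K) :
    UC (fun W => F (K W)) := by
  intro m
  obtain ⟨N, hN⟩ := hF m
  obtain ⟨M, hM⟩ := hK.upto N
  exact ⟨M, fun W W' hW' => hN _ _ (hM W W' hW')⟩

theorem UE.comp {F K : (ℕ → Bool) → (ℕ → Bool)} (hF : UE F) (hK : UE K) :
    UE (fun W => F (K W)) := by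
  intro a
  obtain ⟨b, hb⟩ := hK a
  obtain ⟨d, hd⟩ := hF b
  exact ⟨d, fun W W' hW' => hd _ _ (hb W W' hW')⟩

theorem UC.continuous {F : (ℕ → Bool) → (ℕ → Bool)} (hF : UC F) : Continuous F := by
  refine continuous_pi fun m => ?_
  rw [continuous_discrete_rng]
  intro b
  apply isOpen_of_agree
  intro W hW
  obtain ⟨N, hN⟩ := hF m
  refine ⟨N, fun W' hW' => ?_⟩
  simp only [Set.mem_preimage, Set.mem_singleton_iff] at hW ⊢
  rw [hN W W' hW', hW]

theorem exists_table_code (N : ℕ) : ∀ (T : (ℕ → Bool) → ℕ → ℕ),
    (∀ W W', Agree N W W' → T W' = T W) → (∀ W, Computable (T W)) →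
    ∃ ct, ∀ W m, eval (chi W) ct m = Part.some (T W m) := by
  induction N with
  | zero =>
    intro T hdep hcomp
    obtain ⟨c, hc⟩ := exists_code_of_computable (hcomp (fun _ => false))
    refine ⟨c, fun W m => ?_⟩
    rw [hc, hdep (fun _ => false) W (fun i hi => absurd hi (Nat.not_lt_zero i))]
  | succ N ih =>
    intro T hdep hcomp
    have hupd : ∀ (b : Bool) (W W' : ℕ → Bool), Agree N W W' →
        Agree (N + 1) (Function.update W N b) (Function.update W' N b) := by
      intro b W W' h i hi
      rcases Nat.lt_succ_iff_lt_or_eq.mp hi with hi | rfl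
      · have hne : i ≠ N := by omega
        simp [Function.update_of_ne hne, h i hi]
      · simp
    obtain ⟨c0, h0⟩ := ih (fun W => T (Function.update W N false))
      (fun W W' h => hdep _ _ (hupd false W W' h)) (fun W => hcomp _)
    obtain ⟨c1, h1⟩ := ih (fun W => T (Function.update W N true))
      (fun W W' h => hdep _ _ (hupd true W W' h)) (fun W => hcomp _)
    obtain ⟨cN, hN⟩ := exists_code_of_computable (Computable.const (α := ℕ) N)
    have hsel : Computable (fun z : ℕ => if (Nat.unpair z).1 = 0 then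
        (Nat.unpair (Nat.unpair z).2).1 else (Nat.unpair (Nat.unpair z).2).2) := by
      apply Primrec.to_comp
      refine Primrec.ite ((Primrec.eq (α := ℕ)).comp (Primrec.fst.comp Primrec.unpair)
        (Primrec.const 0)) ?_ ?_
      · exact Primrec.fst.comp (Primrec.unpair.comp (Primrec.snd.comp Primrec.unpair))
      · exact Primrec.snd.comp (Primrec.unpair.comp (Primrec.snd.comp Primrec.unpair))
    obtain ⟨cs, hs⟩ := exists_code_of_computable hsel
    refine ⟨comp cs (pair (comp oracle cN) (pair c0 c1)), fun W m => ?_⟩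
    have e1 : eval (chi W) (comp oracle cN) m = Part.some (W N).toNat := by
      rw [eval_comp_some (hN _ _)]
      rfl
    rw [eval_comp_some (eval_pair_some e1 (eval_pair_some (h0 W m) (h1 W m))), hs]
    simp only [Nat.unpair_pair]
    cases hW : W N with
    | false =>
      have : Function.update W N false = W := by rw [← hW]; exact Function.update_eq_self N W
      simp [this]
    | true =>
      have : Function.update W N true = W := by rw [← hW]; exact Function.update_eq_self N W
      simp [this]

end Vale.Agent.P327
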