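import Vale.Agent.P327.OCode

/-!
Monotonicity and the use principle for oracle programs.
-/

namespace Vale.Agent.P327

open Part

namespace OCode

variable {g g' : ℕ →. ℕ} {a b : OCode} {n x k v : ℕ}

theorem mem_pair_seq {P Q : Part ℕ} :
    v ∈ Nat.pair <$> P <*> Q ↔ ∃ x ∈ P, ∃ y ∈ Q, v = Nat.pair x y := by
  simp only [Seq.seq, Part.map_eq_map, Part.mem_bind_iff, Part.mem_map_iff]
  constructor
  · rintro ⟨f, ⟨x, hx, rfl⟩, y, hy, rfl⟩
    exact ⟨x, hx, y, hy, rfl⟩
  · rintro ⟨x, hx, y, hy, rfl⟩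
    exact ⟨_, ⟨x, hx, rfl⟩, y, hy, rfl⟩

theorem mem_eval_pair :
    v ∈ eval g (pair a b) n ↔ ∃ x ∈ eval g a n, ∃ y ∈ eval g b n, v = Nat.pair x y :=
  mem_pair_seq

theorem mem_eval_comp :
    v ∈ eval g (comp a b) n ↔ ∃ x ∈ eval g b n, v ∈ eval g a x :=
  Part.mem_bind_iff

theorem eval_prec_zero : eval g (prec a b) (Nat.pair x 0) = eval g a x := by
  simp [eval]

theorem eval_prec_succ : eval g (prec a b) (Nat.pair x (k + 1)) =
    (eval g (prec a b) (Nat.pair x k)).bind fun i => eval g b (Nat.pair x (Nat.pair k i)) := by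
  simp [eval]

theorem mem_eval_prec_succ :
    v ∈ eval g (prec a b) (Nat.pair x (k + 1)) ↔
      ∃ i ∈ eval g (prec a b) (Nat.pair x k), v ∈ eval g b (Nat.pair x (Nat.pair k i)) := by
  rw [eval_prec_succ]
  exact Part.mem_bind_iff

theorem true_mem_isZero {P : Part ℕ} : true ∈ (fun m => decide (m = 0)) <$> P ↔ 0 ∈ P := by
  simp only [Part.map_eq_map, Part.mem_map_iff, decide_eq_true_eq]
  constructor
  · rintro ⟨w, hw, rfl⟩
    exact hw
  · intro h
    exact ⟨0, h, rfl⟩

theorem false_mem_isZero {P : Part ℕ} :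
    false ∈ (fun m => decide (m = 0)) <$> P ↔ ∃ w ∈ P, w ≠ 0 := by
  simp only [Part.map_eq_map, Part.mem_map_iff, decide_eq_false_iff_not, ne_eq]

theorem mem_eval_rfind :
    v ∈ eval g (rfind a) x ↔
      0 ∈ eval g a (Nat.pair x v) ∧ ∀ m < v, ∃ w ∈ eval g a (Nat.pair x m), w ≠ 0 := by
  refine (@Nat.mem_rfind (fun n => (fun m => decide (m = 0)) <$> eval g a (Nat.pair x n)) v).trans ?_
  refine and_congr true_mem_isZero ?_
  constructor
  · intro h m hm
    exact false_mem_isZero.mp (h hm)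
  · intro h m hm
    exact false_mem_isZero.mpr (h m hm)

/-- Extension order on oracles. -/
def PLE (g g' : ℕ →. ℕ) : Prop := ∀ n v, v ∈ g n → v ∈ g' n

theorem mono (h : PLE g g') : ∀ (c : OCode) (n v : ℕ), v ∈ eval g c n → v ∈ eval g' c n := by
  intro c
  induction c with
  | zero => intro n v hv; exact hv
  | succ => intro n v hv; exact hv
  | left => intro n v hv; exact hv
  | right => intro n v hv; exact hv
  | oracle => intro n v hv; exact h n v hv
  | pair a b iha ihb =>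
    intro n v hv
    rw [mem_eval_pair] at hv ⊢
    obtain ⟨x, hx, y, hy, rfl⟩ := hv
    exact ⟨x, iha _ _ hx, y, ihb _ _ hy, rfl⟩
  | comp a b iha ihb =>
    intro n v hv
    rw [mem_eval_comp] at hv ⊢
    obtain ⟨x, hx, hv⟩ := hv
    exact ⟨x, ihb _ _ hx, iha _ _ hv⟩
  | prec a b iha ihb =>
    intro n
    rw [← Nat.pair_unpair n]
    generalize (Nat.unpair n).1 = x
    generalize (Nat.unpair n).2 = k
    induction k with
    | zero =>
      intro v hv
      rw [eval_prec_zero] at hv ⊢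
      exact iha _ _ hv
    | succ k ih =>
      intro v hv
      rw [mem_eval_prec_succ] at hv ⊢
      obtain ⟨i, hi, hv⟩ := hv
      exact ⟨i, ih _ hi, ihb _ _ hv⟩
  | rfind a iha =>
    intro n v hv
    rw [mem_eval_rfind] at hv ⊢
    refine ⟨iha _ _ hv.1, fun m hm => ?_⟩
    obtain ⟨w, hw, hw0⟩ := hv.2 m hm
    exact ⟨w, iha _ _ hw, hw0⟩

/-- Restriction of an oracle to arguments below `L`. -/
def restr (g : ℕ →. ℕ) (L : ℕ) : ℕ →. ℕ := fun n => if n < L then g n else Part.none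

theorem restr_le (g : ℕ →. ℕ) (L : ℕ) : PLE (restr g L) g := by
  intro n v hv
  unfold restr at hv
  split_ifs at hv with h
  · exact hv
  · exact absurd hv (Part.notMem_none _)

theorem restr_mono (g : ℕ →. ℕ) {L L' : ℕ} (hL : L ≤ L') : PLE (restr g L) (restr g L') := by
  intro n v hv
  unfold restr at hv ⊢
  split_ifs at hv with h
  · rw [if_pos (lt_of_lt_of_le h hL)]
    exact hv
  · exact absurd hv (Part.notMem_none _)

theorem use (g : ℕ →. ℕ) :
    ∀ (c : OCode) (n v : ℕ), v ∈ eval g c n → ∃ L, v ∈ eval (restr g L) c n := by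
  intro c
  induction c with
  | zero => intro n v hv; exact ⟨0, hv⟩
  | succ => intro n v hv; exact ⟨0, hv⟩
  | left => intro n v hv; exact ⟨0, hv⟩
  | right => intro n v hv; exact ⟨0, hv⟩
  | oracle =>
    intro n v hv
    refine ⟨n + 1, ?_⟩
    show v ∈ restr g (n + 1) n
    unfold restr
    rw [if_pos (Nat.lt_succ_self n)]
    exact hv
  | pair a b iha ihb =>
    intro n v hv
    rw [mem_eval_pair] at hv
    obtain ⟨x, hx, y, hy, rfl⟩ := hv
    obtain ⟨L1, h1⟩ := iha _ _ hx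
    obtain ⟨L2, h2⟩ := ihb _ _ hy
    refine ⟨max L1 L2, ?_⟩
    rw [mem_eval_pair]
    exact ⟨x, mono (restr_mono g (le_max_left _ _)) _ _ _ h1, y,
      mono (restr_mono g (le_max_right _ _)) _ _ _ h2, rfl⟩
  | comp a b iha ihb =>
    intro n v hv
    rw [mem_eval_comp] at hv
    obtain ⟨x, hx, hv⟩ := hv
    obtain ⟨L1, h1⟩ := ihb _ _ hx
    obtain ⟨L2, h2⟩ := iha _ _ hv
    refine ⟨max L1 L2, ?_⟩
    rw [mem_eval_comp]
    exact ⟨x, mono (restr_mono g (le_max_left _ _)) _ _ _ h1,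
      mono (restr_mono g (le_max_right _ _)) _ _ _ h2⟩
  | prec a b iha ihb =>
    intro n
    rw [← Nat.pair_unpair n]
    generalize (Nat.unpair n).1 = x
    generalize (Nat.unpair n).2 = k
    induction k with
    | zero =>
      intro v hv
      rw [eval_prec_zero] at hv
      obtain ⟨L, hL⟩ := iha _ _ hv
      exact ⟨L, by rw [eval_prec_zero]; exact hL⟩
    | succ k ih =>
      intro v hv
      rw [mem_eval_prec_succ] at hv
      obtain ⟨i, hi, hv⟩ := hv
      obtain ⟨L1, h1⟩ := ih _ hi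
      obtain ⟨L2, h2⟩ := ihb _ _ hv
      refine ⟨max L1 L2, ?_⟩
      rw [mem_eval_prec_succ]
      exact ⟨i, mono (restr_mono g (le_max_left _ _)) _ _ _ h1,
        mono (restr_mono g (le_max_right _ _)) _ _ _ h2⟩
  | rfind a iha =>
    intro n v hv
    rw [mem_eval_rfind] at hv
    obtain ⟨h0, hlt⟩ := hv
    obtain ⟨L0, hL0⟩ := iha _ _ h0
    have key : ∀ j, j ≤ v → ∃ L, ∀ m < j, ∃ w ∈ eval (restr g L) a (Nat.pair n m), w ≠ 0 := by
      intro j
      induction j with
      | zero => intro _; exact ⟨0, fun m hm => absurd hm (Nat.not_lt_zero m)⟩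
      | succ j ih =>
        intro hj
        obtain ⟨L1, h1⟩ := ih (Nat.le_of_succ_le hj)
        obtain ⟨w, hw, hw0⟩ := hlt j hj
        obtain ⟨L2, h2⟩ := iha _ _ hw
        refine ⟨max L1 L2, fun m hm => ?_⟩
        rcases Nat.lt_succ_iff_lt_or_eq.mp hm with hm | rfl
        · obtain ⟨w', hw', hw0'⟩ := h1 m hm
          exact ⟨w', mono (restr_mono g (le_max_left _ _)) _ _ _ hw', hw0'⟩
        · exact ⟨w, mono (restr_mono g (le_max_right _ _)) _ _ _ h2, hw0⟩
    obtain ⟨L1, h1⟩ := key v le_rfl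
    refine ⟨max L0 L1, ?_⟩
    rw [mem_eval_rfind]
    refine ⟨mono (restr_mono g (le_max_left _ _)) _ _ _ hL0, fun m hm => ?_⟩
    obtain ⟨w, hw, hw0⟩ := h1 m hm
    exact ⟨w, mono (restr_mono g (le_max_right _ _)) _ _ _ hw, hw0⟩

end OCode

end Vale.Agent.P327
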